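import Vale.Agent.P367K.Jet1

/-! Closure properties of the two classes. -/

namespace Vale.Agent.P367K

open MeasureTheory ProbabilityTheory Real Filter Topology Vale.Agent.P146M Vale.Agent.P146
  Vale.Agent.P146L
open scoped ContDiff

noncomputable section

variable {P U : ℝ → ℝ}

/-- `m = jt 1 P` vanishes at zero and increases; `λ + 2 m` vanishes at zero and has derivative
`-2 E ≤ 0` (`uj_d`, `jt_d`). -/
theorem Bk.signs (h : Bk P) {x : ℝ} (hx : 0 ≤ x) :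
    0 ≤ jt 1 P x ∧ uj 3 P x + 2 * jt 1 P x ≤ 0 ∧ uj 3 P x ≤ 0 ∧ jt 3 P x ≤ 0 := by
  have h1 : 0 ≤ jt 1 P x := by
    have hm : Monotone (jt 1 P) :=
      monotone_of_hasDerivAt_nonneg (fun y => jt_d h.sm 1 y) fun y => (h.pos y).le
    have h0 : jt 1 P 0 = 0 := h.toLj.odd_zero 0
    rw [← h0]
    exact hm hx
  have h2 : uj 3 P x + 2 * jt 1 P x ≤ 0 := by
    have hm : Antitone fun y => uj 3 P y + 2 * jt 1 P y := by
      refine antitone_of_hasDerivAt_nonpos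
        (fun y => (uj_d h.sm (h.pos y).ne' 3).fun_add ((jt_d h.sm 1 y).const_mul 2)) fun y => ?_
      have := h.hE y
      rw [Ee] at this
      show uj 4 P y - uj 3 P y * uj 3 P y + 2 * jt 2 P y ≤ 0
      linarith
    have h0 : jt 1 P 0 = 0 := h.toLj.odd_zero 0
    have h3 : jt 3 P 0 = 0 := h.toLj.odd_zero 1
    have h4 : uj 3 P x + 2 * jt 1 P x ≤ uj 3 P 0 + 2 * jt 1 P 0 := hm hx
    rwa [h0, show uj 3 P 0 = 0 by rw [uj, h3, zero_div], mul_zero, add_zero] at h4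
  have h3 : uj 3 P x ≤ 0 := by linarith
  refine ⟨h1, h2, h3, ?_⟩
  rw [jt_eq_uj (h.pos x).ne' 3]
  exact mul_nonpos_of_nonpos_of_nonneg h3 (h.pos x).le

/-- `uj n` does not change, `E` increases by `(1 - θ) w`, `D` by `3 / 2 (1 - θ) w λ ≤ 0`. -/
theorem Bk.const_mul (h : Bk P) {θ : ℝ} (h0 : 0 < θ) (h1 : θ ≤ 1) : Bk fun y => θ * P y := by
  have hu : ∀ n x, uj n (fun y => θ * P y) x = uj n P x := fun n x => by
    rw [uj, uj, jt_const_mul h.sm, jt_const_mul h.sm, mul_div_mul_left _ _ h0.ne']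
  refine ⟨h.toLj.const_mul θ, fun x => ?_, ?_, fun x => ?_, fun x hx => ?_⟩
  · rw [jt_const_mul h.sm]
    exact mul_pos h0 (h.pos x)
  · simp only [hu]
    exact h.rat
  · have h2 := h.hE x
    have h3 := mul_nonneg (sub_nonneg.2 h1) (h.pos x).le
    rw [Ee] at h2
    rw [Ee, hu, hu, jt_const_mul h.sm]
    linarith
  · have h2 := h.hD x hx
    have h3 := mul_nonpos_of_nonneg_of_nonpos (mul_nonneg (sub_nonneg.2 h1) (h.pos x).le)
      (h.signs hx).2.2.1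
    rw [De] at h2
    rw [De, hu, hu, hu, jt_const_mul h.sm]
    linarith

/-- the polynomials of the derivatives of `lc` -/
def Jet2_p : ℕ → Polynomial ℝ
  | 0 => Polynomial.X
  | n + 1 => Polynomial.derivative (Jet2_p n) * (1 - Polynomial.X ^ 2)

/-- the derivatives of `lc` -/
def Jet2_f : ℕ → ℝ → ℝ
  | 0 => lc
  | n + 1 => fun x => (Jet2_p n).eval (sinh x / cosh x)

theorem Jet2_chain (n : ℕ) (x : ℝ) : HasDerivAt (Jet2_f n) (Jet2_f (n + 1) x) x := by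
  cases n with
  | zero => simpa [Jet2_f, Jet2_p] using K4_d0 x
  | succ n =>
    refine (((Jet2_p n).hasDerivAt (sinh x / cosh x)).comp x (K4_d1 x)).congr_deriv ?_
    simp [Jet2_f, Jet2_p]

theorem Jet2_jt (n : ℕ) (x : ℝ) : jt (n + 1) lc x = (Jet2_p n).eval (sinh x / cosh x) :=
  congrFun ((jt_of_chain Jet2_chain).2 (n + 1)) x

theorem Jet2_lt (x : ℝ) : 0 < 1 - (sinh x / cosh x) ^ 2 := by
  rw [sub_pos, div_pow, div_lt_one (pow_pos (cosh_pos x) 2), cosh_sq]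
  linarith

theorem Jet2_abs (x : ℝ) : |sinh x / cosh x| ≤ 1 := by
  rw [← sq_le_one_iff_abs_le_one]
  exact K4_sq x

/-- every derivative `jt (n + 1) lc` is a polynomial in `t = sinh / cosh` (induction,
`t' = 1 - t ^ 2`, `Polynomial.hasDerivAt`), bounded since `|t| ≤ 1` -/
theorem lj_lc : Lj lc := by
  refine ⟨(jt_of_chain Jet2_chain).1, fun n => ?_, fun x => by rw [lc, lc, cosh_neg]⟩
  obtain ⟨C, hC⟩ := (isCompact_Icc (a := (-1 : ℝ)) (b := 1)).exists_bound_of_continuousOn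
    (Jet2_p n).continuous.continuousOn
  refine ⟨C, fun x => ?_⟩
  rw [Jet2_jt]
  exact hC _ (abs_le.1 (Jet2_abs x))

/-- with `t = sinh / cosh`, `w = 1 - t ^ 2 > 0`: `uj 3 = -2 t`, `uj 4 = 6 t ^ 2 - 2`,
`uj 5 = 16 t - 24 t ^ 3`; `E = 0` and `D = 0`. -/
theorem bk_lc : Bk lc := by
  have e2 : ∀ x, jt 2 lc x = 1 - (sinh x / cosh x) ^ 2 := fun x => by
    rw [Jet2_jt]
    simp [Jet2_p]
  have e3 : ∀ x, uj 3 lc x = -2 * (sinh x / cosh x) := fun x => by
    rw [uj, e2, div_eq_iff (Jet2_lt x).ne', Jet2_jt]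
    generalize sinh x / cosh x = t
    simp [Jet2_p, -mul_eq_mul_right_iff, -mul_eq_mul_left_iff]
    ring
  have e4 : ∀ x, uj 4 lc x = 6 * (sinh x / cosh x) ^ 2 - 2 := fun x => by
    rw [uj, e2, div_eq_iff (Jet2_lt x).ne', Jet2_jt]
    generalize sinh x / cosh x = t
    simp [Jet2_p, -mul_eq_mul_right_iff, -mul_eq_mul_left_iff]
    ring
  have e5 : ∀ x, uj 5 lc x = 16 * (sinh x / cosh x) - 24 * (sinh x / cosh x) ^ 3 := fun x => by
    rw [uj, e2, div_eq_iff (Jet2_lt x).ne', Jet2_jt]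
    generalize sinh x / cosh x = t
    simp [Jet2_p, -mul_eq_mul_right_iff, -mul_eq_mul_left_iff]
    ring
  refine ⟨lj_lc, fun x => ?_, ⟨40, fun x => ?_⟩, fun x => ?_, fun x _ => ?_⟩
  · rw [e2]
    exact Jet2_lt x
  · rw [e3, e4, e5]
    obtain ⟨h1, h2⟩ := abs_le.1 (Jet2_abs x)
    have h3 := K4_sq x
    generalize sinh x / cosh x = t at h1 h2 h3
    have h4 := sq_nonneg t
    have h5 : t ^ 3 ≤ 1 := by nlinarith
    have h6 : -1 ≤ t ^ 3 := by nlinarith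
    refine ⟨abs_le.2 ⟨?_, ?_⟩, abs_le.2 ⟨?_, ?_⟩, abs_le.2 ⟨?_, ?_⟩⟩ <;> linarith
  · rw [Ee, e2, e3, e4]
    exact le_of_eq (by ring)
  · rw [De, e2, e3, e4, e5]
    exact le_of_eq (by ring)

theorem Fw.const (c : ℝ) : Fw fun _ => c := by
  exact ⟨Lj.const c, fun x => (jt_const c 1 x).le, fun x _ => (jt_const c 2 x).ge⟩

theorem Fw.comp_mul (h : Fw U) {c : ℝ} (hc : 0 ≤ c) : Fw fun y => U (c * y) := by
  refine ⟨h.toLj.comp_mul c, fun x => ?_, fun x hx => ?_⟩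
  · rw [jt_comp_mul h.sm]
    exact mul_nonpos_of_nonneg_of_nonpos (pow_nonneg hc _) (h.c2 _)
  · rw [jt_comp_mul h.sm]
    exact mul_nonneg (pow_nonneg hc _) (h.c3 _ (mul_nonneg hc hx))

theorem Fw.sub (h : Fw U) (hP : Bk P) {c : ℝ} (hc : 0 ≤ c) : Fw fun y => U y + -c * P y := by
  refine ⟨h.toLj.add (hP.toLj.const_mul (-c)), fun x => ?_, fun x hx => ?_⟩
  · rw [jt_add h.sm (hP.toLj.const_mul (-c)).sm, jt_const_mul hP.sm]
    have h1 := h.c2 x
    have h2 := mul_nonneg hc (hP.pos x).le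
    linarith
  · rw [jt_add h.sm (hP.toLj.const_mul (-c)).sm, jt_const_mul hP.sm]
    have h1 := h.c3 x hx
    have h2 := mul_nonpos_of_nonneg_of_nonpos hc (hP.signs hx).2.2.2
    linarith

end

end Vale.Agent.P367K
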