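import Vale.Agent.P367K.MaxP
import Vale.Agent.P367K.Jet2

/-! The law of the field is a tilted Gaussian. -/

namespace Vale.Agent.P367K

open MeasureTheory ProbabilityTheory Real Filter Topology Vale.Agent.P146M Vale.Agent.P146
  Vale.Agent.P146L
open scoped ContDiff

noncomputable section

/-- Rotation invariance of the planar Gaussian: the map `(u, u') ↦ (a u + b u', b u - a u')`
preserves `γ1.prod γ1` (characteristic functions, or `stdGaussian_map`, or the density). -/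
theorem gauss_rot {a b : ℝ} (hab : a ^ 2 + b ^ 2 = 1) :
    MeasurePreserving (fun p : ℝ × ℝ => (a * p.1 + b * p.2, b * p.1 - a * p.2)) (γ1.prod γ1)
      (γ1.prod γ1) := by
  have hn : ‖(⟨a, b⟩ : ℂ)‖ = 1 := by
    rw [Complex.norm_eq_sqrt_sq_add_sq, hab, sqrt_one]
  have h0 : (⟨a, b⟩ : ℂ) ≠ 0 := by
    intro h
    rw [h, norm_zero] at hn
    exact zero_ne_one hn
  have hc : cos (Complex.arg ⟨a, b⟩) = a := by rw [Complex.cos_arg h0, hn, div_one]
  have hs : sin (Complex.arg ⟨a, b⟩) = b := by rw [Complex.sin_arg, hn, div_one]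
  have h1 : MeasurePreserving (ContinuousLinearMap.rotation (E := ℝ) (Complex.arg ⟨a, b⟩))
      (γ1.prod γ1) (γ1.prod γ1) :=
    ⟨by fun_prop, IsGaussian.map_rotation_eq_self (μ := γ1) (by simp) _⟩
  have h2 : MeasurePreserving (fun x : ℝ => -x) γ1 γ1 :=
    ⟨measurable_neg, by rw [gaussianReal_map_neg, neg_zero]⟩
  have h3 := ((MeasurePreserving.id γ1).prod h2).comp h1
  refine Eq.mp (congrArg (fun u => MeasurePreserving u (γ1.prod γ1) (γ1.prod γ1)) ?_) h3
  funext p
  simp only [Function.comp_apply, ContinuousLinearMap.rotation_apply, hc, hs, Prod.map, id,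
    smul_eq_mul]
  congr 1
  ring

theorem Rep_bd {f : ℝ → ℝ} (hf : Gr f) : ∃ C, 0 ≤ C ∧ ∀ y, |f y| ≤ C * exp (C * |y|) :=
  Sys.Ex.bd k1_ok hf

theorem Rep_int {g f : ℝ → ℝ} (hg : Gr g) (hf : Gr f) (p q : ℝ) :
    Integrable (fun w : ℝ × ℝ => g (p * w.1) * f (p * w.1 + q * w.2)) (γ1.prod γ1) := by
  obtain ⟨C, hC, h1⟩ := Rep_bd hg
  obtain ⟨D, hD, h2⟩ := Rep_bd hf
  have hm : Measurable fun w : ℝ × ℝ => g (p * w.1) * f (p * w.1 + q * w.2) :=
    (hg.1.comp (by fun_prop)).mul (hf.1.comp (by fun_prop))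
  refine (((int_eabs ((C + D) * |p|)).mul_prod (int_eabs (D * |q|))).const_mul (C * D)).mono'
    hm.aestronglyMeasurable (ae_of_all _ fun w => ?_)
  rw [Real.norm_eq_abs, abs_mul]
  refine (mul_le_mul (h1 _) (h2 _) (abs_nonneg _) (by positivity)).trans ?_
  rw [mul_mul_mul_comm, ← exp_add, ← exp_add]
  refine mul_le_mul_of_nonneg_left (exp_le_exp.2 ?_) (mul_nonneg hC hD)
  have h3 := mul_le_mul_of_nonneg_left (abs_add_le (p * w.1) (q * w.2)) hD
  rw [abs_mul, abs_mul] at h3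
  rw [abs_mul]
  linarith

/-- One Gaussian step.  For `T + t > 0` put `a = √(T / (T + t))`, `b = √(t / (T + t))` in
`gauss_rot`: `√T z + √t z' = √(T + t) u`, `√T z = T / (T + t) * (√(T + t) u) + √(T t / (T + t)) u'`;
Fubini (`Gr` gives integrability).  For `T = t = 0` both sides are `exp (U 0) * f 0`. -/
theorem gauss_step {U f : ℝ → ℝ} (hU : Lj U) (hf : Gr f) {T t : ℝ} (hT : 0 ≤ T) (ht : 0 ≤ t) :
    ∫ z, exp (U (√T * z)) * ∫ z', f (√T * z + √t * z') ∂γ1 ∂γ1 =
      ∫ u, exp (Hq U √(T * t / (T + t)) (T / (T + t) * (√(T + t) * u))) * f (√(T + t) * u) ∂γ1 := by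
  rcases (add_nonneg hT ht).eq_or_lt with h0 | h0
  · obtain rfl : T = 0 := by linarith
    obtain rfl : t = 0 := by linarith
    simp [Hq_zero]
  have hs : 0 < √(T + t) := sqrt_pos.2 h0
  have e1 : √(T + t) ^ 2 = √T ^ 2 + √t ^ 2 := by rw [sq_sqrt hT, sq_sqrt ht, sq_sqrt h0.le]
  have e2 : √(T * t / (T + t)) = √T * √t / √(T + t) := by
    rw [sqrt_div (mul_nonneg hT ht), sqrt_mul hT]
  have e3 : T / (T + t) = √T ^ 2 / √(T + t) ^ 2 := by rw [sq_sqrt hT, sq_sqrt h0.le]
  have hR := gauss_rot (a := √T / √(T + t)) (b := √t / √(T + t)) (by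
    rw [div_pow, div_pow, ← add_div, ← e1, div_self (pow_pos hs 2).ne'])
  have hi := Rep_int hU.gr_exp hf √T √t
  have hi' := (hR.integrable_comp hi.aestronglyMeasurable).2 hi
  have h1 := integral_map (μ := γ1.prod γ1) hR.measurable.aemeasurable
    (f := fun w : ℝ × ℝ => exp (U (√T * w.1)) * f (√T * w.1 + √t * w.2))
    (by rw [hR.map_eq]; exact hi.aestronglyMeasurable)
  rw [hR.map_eq, integral_prod _ hi] at h1
  simp only [integral_const_mul] at h1
  rw [h1]
  refine (integral_prod _ hi').trans (integral_congr_ae (ae_of_all _ fun u => ?_))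
  have h2 := hU.Fq_pos √(T * t / (T + t)) (T / (T + t) * (√(T + t) * u))
  rw [Fq_zero] at h2
  simp only [Hq, Function.comp_apply]
  rw [exp_log h2, ← integral_mul_const]
  refine integral_congr_ae (ae_of_all _ fun u' => ?_)
  have e4 : √T * (√T / √(T + t) * u + √t / √(T + t) * u') +
      √t * (√t / √(T + t) * u - √T / √(T + t) * u') = √(T + t) * u := by
    field_simp
    rw [e1]
    ring
  have e5 : √T * (√T / √(T + t) * u + √t / √(T + t) * u') =
      T / (T + t) * (√(T + t) * u) + √(T * t / (T + t)) * u' := by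
    rw [e2, e3]
    field_simp
  simp only
  rw [e4, e5]

variable {k l : ℕ} {r : ℕ → ℝ}

/-- From the level to the gap: `Kst_eq`, `Pg_step`, `Pg_zero`, `gauss_step`, `Fw.flow`,
`Fw.comp_mul`. -/
theorem rep_gap (hr : AdmR r) (hl : l < k) {U : ℝ → ℝ} (hU : Fw U)
    (h : ∀ φ, Gr φ → EL k r l φ = Iw (r l) U (fun y => zt k l * Ph k r l y) φ) {x : ℝ}
    (h0 : 0 ≤ x) (h1 : x ≤ vv r l) : ∃ U', Fw U' ∧ ∀ φ, Gr φ →
      Eg k r l x φ = Iw (r l + x) U' (fun y => zt k l * Pg k r l x y) φ := by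
  have hk : 0 < k := by omega
  have hζ := zt_pos hk l
  have hT : 0 ≤ r l := hr.1.ge.trans (hr.2 (Nat.zero_le l))
  have hL := lp_Pg hl r x
  have hs : stp (zt k l) x (Pg k r l x) = Ph k r l := by
    have := Pg_step (r := r) hl h0 h1
    rw [sub_zero, Pg_zero hl] at this
    exact this.symm
  refine ⟨fun y => Hq U √(r l * x / (r l + x)) (r l / (r l + x) * y),
    (hU.flow (sqrt_nonneg _)).comp_mul (div_nonneg hT (add_nonneg hT h0)), fun φ hφ => ?_⟩
  have h2 := gauss_step hU.toLj ((K5_exp hL (zt k l) 0).mul hφ) hT h0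
  rw [Eg, h _ (hφ.K hζ hL x), Iw, Iw]
  simp only [sub_zero] at h2
  simp only [exp_add, mul_assoc]
  rw [← h2]
  refine integral_congr_ae (ae_of_all _ fun z => ?_)
  simp only
  rw [Kst_eq hζ hL hφ.1, hs, ← integral_const_mul]
  congr 1
  refine integral_congr_ae (ae_of_all _ fun z' => ?_)
  simp only
  rw [← mul_assoc, ← exp_add]
  congr 2
  ring

/-- Induction on `l`: `EL_zero` with `U = -zt k 0 * Ph k r 0 0`; `rep_gap` at the end of the gap
(`Eg_end`, `Pg_end`) and `Fw.sub` with `c = (zt k (l + 1) - zt k l) / zt k (l + 1)`. -/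
theorem rep_level (hr : AdmR r) (hB : ∀ l < k, Bk fun y => zt k l * Ph k r l y) (hl : l < k) :
    ∃ U, Fw U ∧ ∀ φ, Gr φ → EL k r l φ = Iw (r l) U (fun y => zt k l * Ph k r l y) φ := by
  induction l with
  | zero =>
    refine ⟨fun _ => -(zt k 0 * Ph k r 0 0), Fw.const _, fun φ hφ => ?_⟩
    rw [EL_zero hφ.1, Iw, hr.1]
    simp
  | succ l ih =>
    have hl' : l < k := by omega
    have hζ := zt_pos (show 0 < k by omega) (l + 1)
    obtain ⟨U, hU, h⟩ := ih hl'
    obtain ⟨U', hU', h'⟩ := rep_gap hr hl' hU h (vv_nonneg hr l) le_rfl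
    have hc : 0 ≤ (zt k (l + 1) - zt k l) / zt k (l + 1) := by
      refine div_nonneg (sub_nonneg.2 ?_) hζ.le
      unfold zt
      refine div_le_div_of_nonneg_right ?_ (Nat.cast_nonneg _)
      push_cast
      linarith
    refine ⟨_, hU'.sub (hB (l + 1) hl) hc, fun φ hφ => ?_⟩
    rw [← Eg_end hl' r hφ, h' φ hφ, Pg_end hl', show r l + vv r l = r (l + 1) by rw [vv]; ring,
      Iw, Iw]
    refine integral_congr_ae (ae_of_all _ fun z => ?_)
    simp only
    congr 2
    field_simp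
    ring

end

end Vale.Agent.P367K
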