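import Vale.Agent.P367K.St2

/-! The static inequality for the two classes. -/

namespace Vale.Agent.P367K

open MeasureTheory ProbabilityTheory Real Filter Topology Vale.Agent.P146M Vale.Agent.P146
  Vale.Agent.P146L
open scoped ContDiff

noncomputable section

/-- apply `SD.static` with `ρ = exp (-x ^ 2 / (2 T) + (U + P))`, `m = jt 1 P`, `w = jt 2 P`,
`a, b, c = uj 3, uj 4, uj 5`, `v = x / T - jt 1 U`, `v1 = 1 / T - jt 2 U`, `v2 = -jt 3 U`; `gauss_dec`, `Iw_half`,
`Lj.parity`, `Lj.lip`, `Lj.odd_zero`, `uj_d`, `jt_eq_uj` -/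
theorem static {P U : ℝ → ℝ} (hP : Bk P) (hU : Fw U) {T : ℝ} (hT : 0 < T)
    (h0 : Iw T U P (n1 P) = 0) : 0 < Iw T U P (n2 P) := by
  obtain ⟨κ, hκ, hI⟩ := Iw_half hT
  have hPl := hP.toLj
  have hUl := hU.toLj
  have hw : ∀ x, jt 2 P x ≠ 0 := fun x => (hP.pos x).ne'
  have e1 : ∀ x, n1 P (-x) = n1 P x := fun x => by
    simp only [n1, hPl.parity]; ring
  have e2 : ∀ x, n2 P (-x) = n2 P x := fun x => by
    simp only [n2, hPl.parity]; ring
  rw [hI U P _ hUl.ev hPl.ev e1] at h0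
  rw [hI U P _ hUl.ev hPl.ev e2]
  obtain ⟨C1, h1⟩ := hPl.bd 0
  obtain ⟨C2, h2⟩ := hPl.bd 1
  obtain ⟨C3, h3⟩ := hP.rat
  obtain ⟨C4, h4⟩ := hUl.bd 0
  obtain ⟨C5, h5⟩ := hUl.bd 1
  obtain ⟨L, hL0, hL⟩ := (hUl.add hPl).lip
  have p1 : 0 ≤ C1 := (abs_nonneg _).trans (h1 0)
  have p2 : 0 ≤ C2 := (abs_nonneg _).trans (h2 0)
  have p3 : 0 ≤ C3 := (abs_nonneg _).trans (h3 0).1
  have p4 : 0 ≤ C4 := (abs_nonneg _).trans (h4 0)
  have p5 : 0 ≤ C5 := (abs_nonneg _).trans (h5 0)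
  have pT : 0 < 1 / T := by positivity
  have hdec := gauss_dec (C := |U 0 + P 0| + L) hT (L := fun x => U x + P x)
    (hUl.sm.continuous.add hPl.sm.continuous) fun x => by
      have a1 := (abs_le.1 (hL x 0)).2
      have a2 := le_abs_self (U 0 + P 0)
      have a3 := mul_nonneg (abs_nonneg (U 0 + P 0)) (abs_nonneg x)
      rw [sub_zero] at a1
      nlinarith
  have hS : SD (fun x => exp (-x ^ 2 / (2 * T) + (U x + P x))) (jt 1 P) (jt 2 P) (uj 3 P) (uj 4 P)
      (uj 5 P) (fun x => x / T - jt 1 U x) (fun x => 1 / T - jt 2 U x) (fun x => -jt 3 U x)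
      (C1 + C2 + C3 + C4 + C5 + 1 / T) :=
    { dρ := fun x => by
        refine HasDerivAt.congr_deriv ((((hasDerivAt_pow 2 x).neg.div_const (2 * T)).add
          ((Jet1_d0 hUl.sm x).add (Jet1_d0 hPl.sm x))).exp) ?_
        simp only [Pi.add_apply, Pi.neg_apply]
        congr 1
        field_simp
        ring
      dm := jt_d hPl.sm 1
      dw := fun x => (jt_d hPl.sm 2 x).congr_deriv (jt_eq_uj (hw x) 3)
      da := fun x => (uj_d hPl.sm (hw x) 3).congr_deriv (by ring)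
      db := fun x => uj_d hPl.sm (hw x) 4
      dv := fun x => ((hasDerivAt_id x).div_const T).sub (jt_d hUl.sm 1 x)
      dv1 := fun x => (jt_d hUl.sm 2 x).const_sub (1 / T)
      ρ0 := fun x => exp_pos _
      w0 := hP.pos
      m0 := hPl.odd_zero 0
      a0 := by rw [uj, hPl.odd_zero 1, zero_div]
      v0 := by
        have := hUl.odd_zero 0
        simp only [zero_div, zero_sub, neg_eq_zero]
        exact this
      hv1 := fun x => by linarith [hU.c2 x]
      hv2 := fun x hx => neg_nonpos.2 (hU.c3 x hx)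
      hE := hP.hE
      hD := hP.hD
      bd := fun x => by
        refine ⟨by linarith [h1 x], by linarith [h2 x], by linarith [(h3 x).1],
          by linarith [(h3 x).2.1], (abs_sub _ _).trans ?_, (abs_sub _ _).trans ?_⟩
        · rw [abs_of_pos pT]
          linarith [h5 x]
        · have a1 : |x / T| = 1 / T * |x| := by rw [abs_div, abs_of_pos hT]; ring
          have a2 := mul_nonneg (show 0 ≤ C1 + C2 + C3 + C4 + C5 by linarith) (abs_nonneg x)
          rw [a1]
          nlinarith [h4 x]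
      int := hdec.1.integrableOn
      lim := hdec.2 }
  have f1 : ∀ x, n1 P x = jt 2 P x ^ 2 * (uj 3 P x ^ 2 - 2 * jt 2 P x) := fun x => by
    rw [n1, jt_eq_uj (hw x) 3]; ring
  have f2 : ∀ x, n2 P x = jt 2 P x ^ 2 *
      (uj 4 P x ^ 2 - 12 * jt 2 P x * uj 3 P x ^ 2 + 6 * jt 2 P x ^ 2) := fun x => by
    rw [n2, jt_eq_uj (hw x) 3, jt_eq_uj (hw x) 4]; ring
  simp only [f1] at h0
  simp only [f2]
  exact mul_pos hκ (hS.static ((mul_eq_zero.1 h0).resolve_left hκ.ne'))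

end

end Vale.Agent.P367K
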