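import Vale.Agent.P367K.Jet1

/-! The derivative in time of a tilted expectation. -/

namespace Vale.Agent.P367K

open MeasureTheory ProbabilityTheory Real Filter Topology Vale.Agent.P146M Vale.Agent.P146
  Vale.Agent.P146L
open scoped ContDiff

noncomputable section

variable {Q a ax axx ao : ℝ → ℝ → ℝ}

/-- a bounded family with two space derivatives and one time derivative -/
structure Ob (a ax axx ao : ℝ → ℝ → ℝ) : Prop where
  dx : ∀ s x, HasDerivAt (a s) (ax s x) x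
  dxx : ∀ s x, HasDerivAt (ax s) (axx s x) x
  ds : ∀ s x, HasDerivAt (fun s => a s x) (s * ao s x) s
  c0 : Continuous fun p : ℝ × ℝ => a p.1 p.2
  c1 : Continuous fun p : ℝ × ℝ => ax p.1 p.2
  c2 : Continuous fun p : ℝ × ℝ => axx p.1 p.2
  c3 : Continuous fun p : ℝ × ℝ => ao p.1 p.2
  bd : ∃ C, ∀ s x, |a s x| ≤ C ∧ |ax s x| ≤ C ∧ |axx s x| ≤ C ∧ |ao s x| ≤ C

/-- `Q s 0` is bounded for `s` in a compact interval, and `jt 1` is bounded -/
theorem Fl.exp_le (h : Fl Q) (S : ℝ) :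
    ∃ C, 0 ≤ C ∧ ∀ s x, |s| ≤ S → exp (Q s x) ≤ C * exp (C * |x|) := by
  obtain ⟨C1, h1⟩ := h.bd 0
  have c0 : Continuous fun s => Q s 0 :=
    (h.cont 0).comp (continuous_id.prodMk continuous_const)
  obtain ⟨C2, h2⟩ := isCompact_Icc.exists_bound_of_continuousOn (s := Set.Icc (-S) S)
    c0.continuousOn
  refine ⟨max C1 (exp C2), le_max_of_le_right (exp_pos _).le, fun s x hs => ?_⟩
  have h3 := k1_lip ((h.lj s).sm.differentiable (by simp)) (C := C1)
    (fun y => by simpa only [jt, zero_add, iteratedDeriv_one] using h1 s y) x 0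
  have h4 := h2 s (abs_le.1 hs)
  rw [sub_zero] at h3
  have h5 := mul_le_mul_of_nonneg_right (le_max_left C1 (exp C2)) (abs_nonneg x)
  refine le_trans ?_ (mul_le_mul_of_nonneg_right (le_max_right _ _) (exp_pos _).le)
  rw [← exp_add, exp_le_exp]
  linarith [le_abs_self (Q s x - Q s 0), le_abs_self (Q s 0), Real.norm_eq_abs (Q s 0)]

/-- jointly continuous families with exponential growth -/
def Td_G (A : ℝ → ℝ → ℝ) : Prop := (Continuous fun p : ℝ × ℝ => A p.1 p.2) ∧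
  ∀ S, ∃ C, 0 ≤ C ∧ ∀ s x, |s| ≤ S → |A s x| ≤ C * exp (C * |x|)

/-- jointly continuous bounded families -/
def Td_B (A : ℝ → ℝ → ℝ) : Prop := (Continuous fun p : ℝ × ℝ => A p.1 p.2) ∧
  ∃ C, 0 ≤ C ∧ ∀ s x, |A s x| ≤ C

theorem Td_B.of {A : ℝ → ℝ → ℝ} (c : Continuous fun p : ℝ × ℝ => A p.1 p.2) {C : ℝ}
    (h : ∀ s x, |A s x| ≤ C) : Td_B A := ⟨c, C, (abs_nonneg _).trans (h 0 0), h⟩

theorem Td_B.add {A B : ℝ → ℝ → ℝ} (hA : Td_B A) (hB : Td_B B) : Td_B fun s x => A s x + B s x :=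
  let ⟨_, _, h1⟩ := hA.2
  let ⟨_, _, h2⟩ := hB.2
  .of (hA.1.add hB.1) fun s x => (abs_add_le _ _).trans (add_le_add (h1 s x) (h2 s x))

theorem Td_B.mul {A B : ℝ → ℝ → ℝ} (hA : Td_B A) (hB : Td_B B) : Td_B fun s x => A s x * B s x :=
  let ⟨_, p, h1⟩ := hA.2
  let ⟨_, _, h2⟩ := hB.2
  .of (hA.1.mul hB.1) fun s x =>
    (abs_mul _ _).trans_le (mul_le_mul (h1 s x) (h2 s x) (abs_nonneg _) p)

theorem Td_B.const (c : ℝ) : Td_B fun _ _ => c := .of continuous_const fun _ _ => le_rfl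

theorem Td_jt (h : Fl Q) (n : ℕ) : Td_B fun s x => jt (n + 1) (Q s) x :=
  let ⟨_, h1⟩ := h.bd n
  .of (h.cont _) h1

theorem Td_exp (h : Fl Q) {b : ℝ → ℝ → ℝ} (hb : Td_B b) : Td_G fun s x => exp (Q s x) * b s x := by
  refine ⟨(continuous_exp.comp (h.cont 0)).mul hb.1, fun S => ?_⟩
  obtain ⟨C1, c1, h1⟩ := h.exp_le S
  obtain ⟨C2, c2, h2⟩ := hb.2
  refine ⟨C1 * (1 + C2), by positivity, fun s x hs => ?_⟩
  rw [abs_mul, abs_exp]
  have e : exp (C1 * |x|) ≤ exp (C1 * (1 + C2) * |x|) := by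
    gcongr
    exact le_mul_of_one_le_right c1 (by linarith)
  calc _ ≤ C1 * exp (C1 * (1 + C2) * |x|) * (1 + C2) :=
        mul_le_mul ((h1 s x hs).trans (by gcongr)) ((h2 s x).trans (by linarith)) (abs_nonneg _)
          (by positivity)
    _ = _ := by ring

theorem Td_G.bd {A : ℝ → ℝ → ℝ} (hA : Td_G A) (v : ℝ) : ∃ C, 0 ≤ C ∧ ∀ t ∈ Set.Icc 0 v, ∀ y z,
    |A √(v - t) (y + √t * z)| ≤ C * exp (C * |y|) * exp (C * √v * |z|) := by
  obtain ⟨C, c, h⟩ := hA.2 √v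
  refine ⟨C, c, fun t ht y z => (h _ _ ?_).trans ?_⟩
  · rw [abs_of_nonneg (sqrt_nonneg _)]
    exact sqrt_le_sqrt (by linarith [ht.1])
  · rw [mul_assoc C (exp _), ← exp_add, mul_assoc, ← mul_add]
    gcongr
    refine (abs_add_le _ _).trans ?_
    rw [abs_mul, abs_of_nonneg (sqrt_nonneg _)]
    gcongr
    exact ht.2

theorem Td_G.cz {A : ℝ → ℝ → ℝ} (hA : Td_G A) (s y c : ℝ) : Continuous fun z => A s (y + c * z) :=
  hA.1.comp (continuous_const.prodMk (by fun_prop))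

theorem Td_G.int {A : ℝ → ℝ → ℝ} (hA : Td_G A) {v t : ℝ} (ht : t ∈ Set.Icc 0 v) (y : ℝ) :
    Integrable (fun z => A √(v - t) (y + √t * z)) γ1 ∧
      Integrable (fun z => z * A √(v - t) (y + √t * z)) γ1 := by
  obtain ⟨C, c, h⟩ := hA.bd v
  refine ⟨int_gr (hA.cz _ _ _).measurable _ _ (h t ht y), int_gr
    (continuous_id.mul (hA.cz _ _ _)).measurable (C * exp (C * |y|)) (C * √v + 1) fun z => ?_⟩
  rw [abs_mul, add_mul, exp_add, ← mul_assoc, mul_comm, one_mul]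
  exact mul_le_mul (h t ht y z) (by linarith [add_one_le_exp |z|]) (abs_nonneg _) (by positivity)

theorem Td_G.gr {A : ℝ → ℝ → ℝ} (hA : Td_G A) (v : ℝ) : ∃ C, ∀ t ∈ Set.Icc 0 v,
    Measurable (fun y => ∫ z, A √(v - t) (y + √t * z) ∂γ1) ∧
      ∀ y, |∫ z, A √(v - t) (y + √t * z) ∂γ1| ≤ C * exp (C * |y|) := by
  obtain ⟨C, c, h⟩ := hA.bd v
  have k0 : 0 ≤ ∫ z, exp (C * √v * |z|) ∂γ1 := integral_nonneg fun z => (exp_pos _).le
  refine ⟨C * (1 + ∫ z, exp (C * √v * |z|) ∂γ1), fun t ht => ⟨?_, fun y => ?_⟩⟩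
  · exact (StronglyMeasurable.integral_prod_right' (ν := γ1)
      (f := fun p : ℝ × ℝ => A √(v - t) (p.1 + √t * p.2))
      (hA.1.comp (continuous_const.prodMk (by fun_prop))).stronglyMeasurable).measurable
  refine (k6_abs ((int_eabs _).const_mul _) (h t ht y)).trans ?_
  rw [integral_const_mul, mul_right_comm]
  gcongr
  · exact le_add_of_nonneg_left zero_le_one
  · exact le_mul_of_one_le_right c (by linarith)

theorem Td_chain {A Ax As : ℝ → ℝ → ℝ} (hx : ∀ s x, HasDerivAt (A s) (Ax s x) x)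
    (hs : ∀ s x, HasDerivAt (fun s => A s x) (As s x) s)
    (c1 : Continuous fun p : ℝ × ℝ => Ax p.1 p.2) (c2 : Continuous fun p : ℝ × ℝ => As p.1 p.2)
    {f g : ℝ → ℝ} {f' g' t : ℝ} (hf : HasDerivAt f f' t) (hg : HasDerivAt g g' t) :
    HasDerivAt (fun t => A (f t) (g t)) (f' * As (f t) (g t) + g' * Ax (f t) (g t)) t := by
  have L := (ContinuousLinearMap.toSpanSingletonCLE (𝕜 := ℝ) (E := ℝ)).continuous
  have := (hasStrictFDerivAt_uncurry_coprod (𝕜 := ℝ) (u := (f t, g t)) (f := A)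
    (f₁ := fun s x => ContinuousLinearMap.toSpanSingleton ℝ (As s x))
    (f₂ := fun s x => ContinuousLinearMap.toSpanSingleton ℝ (Ax s x))
    (Eventually.of_forall fun p => (hs p.1 p.2).hasFDerivAt)
    (Eventually.of_forall fun p => (hx p.1 p.2).hasFDerivAt) (L.comp c2).continuousAt
    (L.comp c1).continuousAt).hasFDerivAt.comp_hasDerivAt t (hf.prodMk hg)
  exact this

theorem Td_inner {A Ax Axx B : ℝ → ℝ → ℝ} (hx : ∀ s x, HasDerivAt (A s) (Ax s x) x)
    (hxx : ∀ s x, HasDerivAt (Ax s) (Axx s x) x)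
    (hs : ∀ s x, HasDerivAt (fun s => A s x) (s * B s x) s) (g0 : Td_G A) (g1 : Td_G Ax)
    (g2 : Td_G Axx) (g3 : Td_G B) {v t : ℝ} (h0 : 0 < t) (h1 : t < v) (y : ℝ) :
    HasDerivAt (fun t => ∫ z, A √(v - t) (y + √t * z) ∂γ1)
      (∫ z, (Axx √(v - t) (y + √t * z) - B √(v - t) (y + √t * z)) / 2 ∂γ1) t := by
  have ht : t ∈ Set.Icc 0 v := ⟨h0.le, h1.le⟩
  obtain ⟨C1, c1, b1⟩ := g1.bd v
  obtain ⟨C3, c3, b3⟩ := g3.bd v
  have s0 : 0 < √(t / 2) := sqrt_pos.2 (by linarith)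
  have key := (hasDerivAt_integral_of_dominated_loc_of_deriv_le (μ := γ1)
    (F := fun t z => A √(v - t) (y + √t * z)) (Ioo_mem_nhds (half_lt_self h0) h1)
    (Eventually.of_forall fun t => (g0.cz _ _ _).aestronglyMeasurable) (g0.int ht y).1
    (F' := fun t z => (2 * √t)⁻¹ * (z * Ax √(v - t) (y + √t * z)) - B √(v - t) (y + √t * z) / 2)
    (bound := fun z => (2 * √(t / 2))⁻¹ * (C1 * exp (C1 * |y|) * exp ((C1 * √v + 1) * |z|)) +
      C3 * exp (C3 * |y|) * exp (C3 * √v * |z|) / 2)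
    (((g1.int ht y).2.const_mul _).sub ((g3.int ht y).1.div_const 2)).1
    (ae_of_all _ fun z u hu => ?_) ((((int_eabs _).const_mul _).const_mul _).add
      (((int_eabs _).const_mul _).div_const 2)) (ae_of_all _ fun z u hu => ?_)).2
  · have st : 0 < √t := sqrt_pos.2 h0
    have ib := ibp_one (f := fun z => Ax √(v - t) (y + √t * z))
      (f' := fun z => √t * Axx √(v - t) (y + √t * z)) (fun z => by
        have := (hxx √(v - t) (y + √t * z)).comp z
          (((hasDerivAt_id z).const_mul √t).const_add y)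
        rwa [mul_one, mul_comm] at this) (g1.int ht y).1 ((g2.int ht y).1.const_mul _)
      (g1.int ht y).2
    refine key.congr_deriv ?_
    rw [integral_sub ((g1.int ht y).2.const_mul _) ((g3.int ht y).1.div_const 2),
      integral_const_mul, ib, integral_const_mul, integral_div, integral_div,
      integral_sub (g2.int ht y).1 (g3.int ht y).1]
    field_simp
  · have hu' : u ∈ Set.Icc 0 v := ⟨by linarith [hu.1], hu.2.le⟩
    have su : √(t / 2) ≤ √u := sqrt_le_sqrt hu.1.le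
    refine (abs_sub _ _).trans (add_le_add ?_ ?_)
    · rw [abs_mul, abs_mul, abs_of_nonneg (by positivity), add_mul, exp_add, ← mul_assoc (_ * _),
        mul_comm |z|, one_mul]
      gcongr
      · exact b1 u hu' y z
      · linarith [add_one_le_exp |z|]
    · rw [abs_div, abs_two]
      gcongr
      exact b3 u hu' y z
  · have u0 : 0 < u := by linarith [hu.1]
    have u1 : 0 < v - u := sub_pos.2 hu.2
    have s1 := (sqrt_pos.2 u1).ne'
    have s2 := (sqrt_pos.2 u0).ne'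
    refine (Td_chain hx hs g1.1 (continuous_fst.mul g3.1)
      (((hasDerivAt_id u).const_sub v).sqrt u1.ne')
      ((((hasDerivAt_id u).sqrt u0.ne').mul_const z).const_add y)).congr_deriv ?_
    simp only [id]
    field_simp
    ring

/-- With `A = exp Q * a`: `A_s = s exp Q (ao + (Q'' + Q' ^ 2) a)`, `A_x = exp Q (ax + Q' a)`,
`A_xx = exp Q (axx + 2 Q' ax + (Q'' + Q' ^ 2) a)`.  Chain rule by
`hasStrictFDerivAt_uncurry_coprod`, differentiation under the integral, and `ibp_one`: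
`∫ z A_x (y + √t z) = √t ∫ A_xx (y + √t z)`. -/
theorem inner_deriv (h : Fl Q) (ha : Ob a ax axx ao) {v t : ℝ} (h0 : 0 < t) (h1 : t < v) (y : ℝ) :
    HasDerivAt (fun t => ∫ z, exp (Q √(v - t) (y + √t * z)) * a √(v - t) (y + √t * z) ∂γ1)
      (∫ z, exp (Q √(v - t) (y + √t * z)) * ((axx √(v - t) (y + √t * z) +
        2 * jt 1 (Q √(v - t)) (y + √t * z) * ax √(v - t) (y + √t * z) -
        ao √(v - t) (y + √t * z)) / 2) ∂γ1) t := by
  obtain ⟨C, hC⟩ := ha.bd
  have b0 := Td_B.of ha.c0 fun s x => (hC s x).1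
  have b1 := Td_B.of ha.c1 fun s x => (hC s x).2.1
  have b2 := Td_B.of ha.c2 fun s x => (hC s x).2.2.1
  have b3 := Td_B.of ha.c3 fun s x => (hC s x).2.2.2
  have j1 := Td_jt h 0
  have j2 := ((Td_jt h 1).add (j1.mul j1)).mul b0
  have d0 := fun s x => (jt_d (h.lj s).sm 0 x).exp
  refine (Td_inner (A := fun s x => exp (Q s x) * a s x) (fun s x => ?_) (fun s x => ?_)
    (fun s x => ?_) (Td_exp h b0) (Td_exp h (b1.add (j1.mul b0)))
    (Td_exp h ((b2.add (((Td_B.const 2).mul j1).mul b1)).add j2)) (Td_exp h (b3.add j2)) h0 h1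
    y).congr_deriv (integral_congr_ae (ae_of_all _ fun z => by ring))
  · exact ((d0 s x).mul (ha.dx s x)).congr_deriv (by simp only [jt, iteratedDeriv_zero]; ring)
  · exact ((d0 s x).mul ((ha.dxx s x).add ((jt_d (h.lj s).sm 1 x).mul (ha.dx s x)))).congr_deriv
      (by simp only [jt, iteratedDeriv_zero, Pi.add_apply, Pi.mul_apply]; ring)
  · exact ((h.t0 s x).exp.mul (ha.ds s x)).congr_deriv (by ring)

/-- differentiate under the outer integral; the inner integrals are at most `C exp (C |y|)` -/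
theorem Gt_deriv (h : Fl Q) (ha : Ob a ax axx ao) {μ : Measure ℝ} (hμ : ∀ φ, Gr φ → Integrable φ μ)
    {ϖ : ℝ → ℝ} (hϖ : Gr ϖ) {v t : ℝ} (h0 : 0 < t) (h1 : t < v) :
    HasDerivAt (Gt μ ϖ Q v a)
      (Gt μ ϖ Q v (fun s x => (axx s x + 2 * jt 1 (Q s) x * ax s x - ao s x) / 2) t) t := by
  obtain ⟨C, hC⟩ := ha.bd
  have b0 := Td_B.of ha.c0 fun s x => (hC s x).1
  have b1 := Td_B.of ha.c1 fun s x => (hC s x).2.1
  have b2 := Td_B.of ha.c2 fun s x => (hC s x).2.2.1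
  have b3 := Td_B.of ha.c3 fun s x => (hC s x).2.2.2
  have b4 : Td_B fun s x => (axx s x + 2 * jt 1 (Q s) x * ax s x - ao s x) / 2 := by
    have := ((b2.add (((Td_B.const 2).mul (Td_jt h 0)).mul b1)).add
      ((Td_B.const (-1)).mul b3)).mul (Td_B.const 2⁻¹)
    simpa only [div_eq_mul_inv, sub_eq_add_neg, neg_one_mul, zero_add] using this
  obtain ⟨C0, g0⟩ := (Td_exp h b0).gr v
  obtain ⟨C4, g4⟩ := (Td_exp h b4).gr v
  have ht : t ∈ Set.Icc 0 v := ⟨h0.le, h1.le⟩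
  have ge : Gr fun y => C4 * exp (C4 * |y|) :=
    ⟨by fun_prop, |C4|, fun y => by
      rw [abs_mul, abs_exp]
      gcongr
      exact le_abs_self _⟩
  refine (hasDerivAt_integral_of_dominated_loc_of_deriv_le (μ := μ) (Ioo_mem_nhds h0 h1)
    (F := fun t y => ϖ y * ∫ z, exp (Q √(v - t) (y + √t * z)) * a √(v - t) (y + √t * z) ∂γ1)
    (bound := fun y => |ϖ y| * (C4 * exp (C4 * |y|))) ?_
    (hμ _ (hϖ.mul ⟨(g0 t ht).1, C0, (g0 t ht).2⟩)) (hϖ.1.mul (g4 t ht).1).aestronglyMeasurable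
    (ae_of_all _ fun y u hu => ?_) (hμ _ (hϖ.abs.mul ge))
    (ae_of_all _ fun y u hu => (inner_deriv h ha hu.1 hu.2 y).const_mul (ϖ y))).2
  · filter_upwards [Icc_mem_nhds h0 h1] with u hu
    exact (hϖ.1.mul (g0 u hu).1).aestronglyMeasurable
  · rw [Real.norm_eq_abs, abs_mul]
    exact mul_le_mul_of_nonneg_left ((g4 u ⟨hu.1.le, hu.2.le⟩).2 y) (abs_nonneg _)

end

end Vale.Agent.P367K
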