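import Vale.Agent.P367K.FlowB
import Vale.Agent.P367K.St3
import Vale.Agent.P367K.Rep
import Vale.Agent.P367K.Td

/-! Lemma K. -/

namespace Vale.Agent.P367K

open MeasureTheory ProbabilityTheory Real Filter Topology Vale.Agent.P146M Vale.Agent.P146
  Vale.Agent.P146L
open scoped ContDiff

noncomputable section

/-- no interior maximum -/
lemma quasi {N N1 N2 : ℝ → ℝ} {v : ℝ} (hc : ContinuousOn N (Set.Icc 0 v))
    (h1 : ∀ t, 0 < t → t < v → HasDerivAt N (N1 t) t)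
    (h2 : ∀ t, 0 < t → t < v → HasDerivAt N1 (N2 t) t)
    (h : ∀ t, 0 < t → t < v → N1 t = 0 → 0 < N2 t) {x : ℝ} (hx : x ∈ Set.Icc 0 v) :
    N x ≤ max (N 0) (N v) := by
  obtain ⟨t, ht, hm⟩ := isCompact_Icc.exists_isMaxOn ⟨x, hx⟩ hc
  refine (hm hx).trans ?_
  rcases ht.1.eq_or_lt with rfl | t0
  · exact le_max_left _ _
  rcases ht.2.eq_or_lt with rfl | t1
  · exact le_max_right _ _
  exfalso
  have e1 : N1 t = 0 := (hm.isLocalMax (Icc_mem_nhds t0 t1)).hasDerivAt_eq_zero (h1 t t0 t1)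
  have e2 := ((hasDerivAt_iff_tendsto_slope.1 (h2 t t0 t1)).mono_left
    (nhdsGT_le_nhdsNE t)).eventually (lt_mem_nhds (h t t0 t1 e1))
  obtain ⟨u, hu, e3⟩ := (nhdsGT_basis t).eventually_iff.1 (e2.and (Ioo_mem_nhdsGT t1))
  obtain ⟨y, hy⟩ := exists_between hu
  have hyv := (e3 hy).2.2
  have e4 : StrictMonoOn N (Set.Icc t y) := by
    refine strictMonoOn_of_deriv_pos (convex_Icc _ _)
      (hc.mono (Set.Icc_subset_Icc t0.le hyv.le)) fun z hz => ?_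
    rw [interior_Icc] at hz
    obtain ⟨a, b⟩ := e3 (⟨hz.1, hz.2.trans hy.2⟩ : z ∈ Set.Ioo t u)
    rw [slope_def_field, e1, sub_zero] at a
    rw [(h1 z (t0.trans hz.1) b.2).deriv]
    exact (div_pos_iff_of_pos_right (sub_pos.2 hz.1)).1 a
  exact absurd (hm ⟨(t0.trans hy.1).le, hyv.le⟩)
    (not_le.2 (e4 ⟨le_rfl, hy.1.le⟩ ⟨hy.1.le, le_rfl⟩ hy.1))

section Ob

variable {Q : ℝ → ℝ → ℝ}

lemma Fl.b (h : Fl Q) (n : ℕ) : St2B fun p : ℝ × ℝ => jt (n + 1) (Q p.1) p.2 :=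
  let ⟨C, hC⟩ := h.bd n
  ⟨C, (abs_nonneg _).trans (hC 0 0), fun p => hC p.1 p.2⟩

lemma b4 {a b c d : ℝ → ℝ → ℝ} (ha : St2B fun p : ℝ × ℝ => a p.1 p.2)
    (hb : St2B fun p : ℝ × ℝ => b p.1 p.2) (hc : St2B fun p : ℝ × ℝ => c p.1 p.2)
    (hd : St2B fun p : ℝ × ℝ => d p.1 p.2) :
    ∃ C, ∀ s x, |a s x| ≤ C ∧ |b s x| ≤ C ∧ |c s x| ≤ C ∧ |d s x| ≤ C := by
  obtain ⟨A, a0, ha⟩ := ha
  obtain ⟨B, b0, hb⟩ := hb
  obtain ⟨C, c0, hc⟩ := hc
  obtain ⟨D, d0, hd⟩ := hd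
  exact ⟨A + B + C + D, fun s x => ⟨by linarith [ha (s, x)], by linarith [hb (s, x)],
    by linarith [hc (s, x)], by linarith [hd (s, x)]⟩⟩

lemma Fl.ob0 (h : Fl Q) : Ob (fun s x => jt 2 (Q s) x ^ 2)
    (fun s x => 2 * jt 2 (Q s) x * jt 3 (Q s) x)
    (fun s x => 2 * jt 3 (Q s) x ^ 2 + 2 * jt 2 (Q s) x * jt 4 (Q s) x)
    (fun s x => 2 * jt 2 (Q s) x *
      (jt 4 (Q s) x + 2 * jt 1 (Q s) x * jt 3 (Q s) x + 2 * jt 2 (Q s) x ^ 2)) := by
  have d := fun s n => jt_d (h.lj s).sm n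
  have c1 := h.cont 1
  have c2 := h.cont 2
  have c3 := h.cont 3
  have c4 := h.cont 4
  have b1 : St2B fun p : ℝ × ℝ => jt 1 (Q p.1) p.2 := h.b 0
  have b2 : St2B fun p : ℝ × ℝ => jt 2 (Q p.1) p.2 := h.b 1
  have b3 : St2B fun p : ℝ × ℝ => jt 3 (Q p.1) p.2 := h.b 2
  have b4' : St2B fun p : ℝ × ℝ => jt 4 (Q p.1) p.2 := h.b 3
  exact ⟨fun s x => ((d s 2 x).pow 2).congr_deriv (by simp),
    fun s x => (((d s 2 x).const_mul 2).mul (d s 3 x)).congr_deriv (by ring),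
    fun s x => ((h.t2 s x).pow 2).congr_deriv (by simp; ring), by fun_prop, by fun_prop,
    by fun_prop, by fun_prop, b4 (by fun_prop) (by fun_prop) (by fun_prop) (by fun_prop)⟩

lemma Fl.ob1 (h : Fl Q) : Ob (fun s x => n1 (Q s) x)
    (fun s x => 2 * jt 3 (Q s) x * jt 4 (Q s) x - 6 * jt 2 (Q s) x ^ 2 * jt 3 (Q s) x)
    (fun s x => 2 * jt 4 (Q s) x ^ 2 + 2 * jt 3 (Q s) x * jt 5 (Q s) x -
      12 * jt 2 (Q s) x * jt 3 (Q s) x ^ 2 - 6 * jt 2 (Q s) x ^ 2 * jt 4 (Q s) x)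
    (fun s x => 2 * jt 3 (Q s) x *
      (jt 5 (Q s) x + 2 * jt 1 (Q s) x * jt 4 (Q s) x + 6 * jt 2 (Q s) x * jt 3 (Q s) x) -
      6 * jt 2 (Q s) x ^ 2 *
      (jt 4 (Q s) x + 2 * jt 1 (Q s) x * jt 3 (Q s) x + 2 * jt 2 (Q s) x ^ 2)) := by
  have d := fun s n => jt_d (h.lj s).sm n
  have c1 := h.cont 1
  have c2 := h.cont 2
  have c3 := h.cont 3
  have c4 := h.cont 4
  have c5 := h.cont 5
  have b1 : St2B fun p : ℝ × ℝ => jt 1 (Q p.1) p.2 := h.b 0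
  have b2 : St2B fun p : ℝ × ℝ => jt 2 (Q p.1) p.2 := h.b 1
  have b3 : St2B fun p : ℝ × ℝ => jt 3 (Q p.1) p.2 := h.b 2
  have b4' : St2B fun p : ℝ × ℝ => jt 4 (Q p.1) p.2 := h.b 3
  have b5 : St2B fun p : ℝ × ℝ => jt 5 (Q p.1) p.2 := h.b 4
  unfold n1
  exact ⟨fun s x => (((d s 3 x).pow 2).sub (((d s 2 x).pow 3).const_mul 2)).congr_deriv
      (by simp; ring),
    fun s x => ((((d s 3 x).const_mul 2).mul (d s 4 x)).sub
      ((((d s 2 x).pow 2).const_mul 6).mul (d s 3 x))).congr_deriv (by simp; ring),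
    fun s x => (((h.t3 s x).pow 2).sub (((h.t2 s x).pow 3).const_mul 2)).congr_deriv
      (by simp; ring), by fun_prop, by fun_prop,
    by fun_prop, by fun_prop, b4 (by fun_prop) (by fun_prop) (by fun_prop) (by fun_prop)⟩

end Ob

lemma Lj.gr_n {P : ℝ → ℝ} (h : Lj P) : Gr (n1 P) ∧ Gr (n2 P) :=
  ⟨((h.gr_jt 2).pow 2).sub ((Gr.const 2).mul ((h.gr_jt 1).pow 3)),
    (((h.gr_jt 3).pow 2).sub (((Gr.const 12).mul (h.gr_jt 1)).mul ((h.gr_jt 2).pow 2))).add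
      ((Gr.const 6).mul ((h.gr_jt 1).pow 4))⟩

variable {k l : ℕ} {r : ℕ → ℝ}

lemma Pg_Hq (hl : l < k) (t : ℝ) : (fun y => zt k l * Pg k r l t y) =
    Hq (fun y => zt k l * Ph k r (l + 1) y) √(vv r l - t) :=
  (Hq_stp (zt_pos (by omega) l) _ _).symm

lemma bk_next (hl : l < k) : Bk fun y => zt k l * Ph k r (l + 1) y := by
  have hk : 0 < k := by omega
  induction hd : k - (l + 1) generalizing l with
  | zero =>
    rw [show l + 1 = k by omega, Ph_top]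
    exact bk_lc.const_mul (zt_pos hk l) (zt_le hl)
  | succ n ih =>
    have hl' : l + 1 < k := by omega
    have h1 := (ih hl' (by omega)).flow (sqrt_nonneg (vv r (l + 1) - 0))
    rw [← Pg_Hq hl', Pg_zero hl'] at h1
    have z1 := zt_pos hk (l + 1)
    have h2 := h1.const_mul (div_pos (zt_pos hk l) z1) ((div_le_one z1).2 (by
      unfold zt
      gcongr
      linarith))
    simpa only [← mul_assoc, div_mul_cancel₀ _ z1.ne'] using h2

lemma bk_Pg (hl : l < k) (t : ℝ) : Bk fun y => zt k l * Pg k r l t y :=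
  Pg_Hq (r := r) hl t ▸ (bk_next hl).flow (sqrt_nonneg _)

lemma Eg_Gt (hl : l < k) {t : ℝ} (h0 : 0 ≤ t) (h1 : t ≤ vv r l) {a : ℝ → ℝ → ℝ}
    (ha : Measurable (a √(vv r l - t))) : Eg k r l t (a √(vv r l - t)) =
    Gt (muL k r l) (fun y => exp (-zt k l * (Ph k r l y - 0)))
      (Hq fun y => zt k l * Ph k r (l + 1) y) (vv r l) a t := by
  have e := Pg_step (r := r) hl h0 h1
  rw [Pg_zero hl, sub_zero] at e
  refine integral_congr_ae (ae_of_all _ fun y => ?_)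
  simp only
  rw [Kst_eq (zt_pos (by omega) l) (lp_Pg hl r t) ha, ← e, ← Pg_Hq hl, ← integral_const_mul]
  refine integral_congr_ae (ae_of_all _ fun z => ?_)
  simp only
  rw [← mul_assoc, ← exp_add]
  congr 2
  ring

lemma gN_Gt (hl : l < k) {t : ℝ} (h0 : 0 ≤ t) (h1 : t ≤ vv r l) : gN k r l t = (zt k l)⁻¹ ^ 2 *
    Gt (muL k r l) (fun y => exp (-zt k l * (Ph k r l y - 0)))
      (Hq fun y => zt k l * Ph k r (l + 1) y) (vv r l)
      (fun s x => jt 2 (Hq (fun y => zt k l * Ph k r (l + 1) y) s) x ^ 2) t := by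
  have z := zt_pos (show 0 < k by omega) l
  have hs := (bk_Pg (r := r) hl t).sm
  rw [← Eg_Gt hl h0 h1 (a := fun s x => jt 2 (Hq (fun y => zt k l * Ph k r (l + 1) y) s) x ^ 2)
    (Pg_Hq (r := r) hl t ▸ ((jt_cont hs 2).pow 2).measurable), ← Pg_Hq hl]
  have e : ∀ y, D2 (Pg k r l t) y = (zt k l)⁻¹ * jt 2 (fun y => zt k l * Pg k r l t y) y := by
    intro y
    rw [← jt_const_mul hs, ← jt_two]
    simp only [inv_mul_cancel_left₀ z.ne']
  simp only [gN, Eg, P146L.EL, e, mul_pow]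
  rw [← integral_const_mul]
  exact integral_congr_ae (ae_of_all _ fun y => integral_const_mul _ _)

theorem lemmaK (hr : AdmR r) (hl : l < k) {x : ℝ} (h0 : 0 ≤ x) (h1 : x ≤ vv r l) :
    gN k r l x ≤ max (Nn k r l) (Nn k r (l + 1)) := by
  have hk : 0 < k := by omega
  have z := zt_pos hk l
  obtain ⟨-, -, e0, e1⟩ := gap_ends hr hl
  obtain ⟨C, hC, hinc⟩ := gap_incr (r k)
  have hF := (bk_next (r := r) hl).toLj.fl
  have hμ : ∀ φ, Gr φ → Integrable φ (muL k r l) := fun φ hφ => hφ.intL hk r hl.le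
  have hϖ := K5_exp (lp_Ph hk r hl.le) (-zt k l) 0
  obtain ⟨U, hU, hrep⟩ := rep_level hr (fun l hl => by
    have := bk_Pg (r := r) hl 0
    rwa [Pg_zero hl] at this) hl
  rw [← e0, ← e1]
  refine quasi (N1 := fun t => (zt k l)⁻¹ ^ 2 * Gt (muL k r l) _ _ (vv r l)
      (fun s x => n1 (Hq (fun y => zt k l * Ph k r (l + 1) y) s) x) t)
    (N2 := fun t => (zt k l)⁻¹ ^ 2 * Gt (muL k r l) (fun y => exp (-zt k l * (Ph k r l y - 0)))
      (Hq fun y => zt k l * Ph k r (l + 1) y) (vv r l)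
      (fun s x => n2 (Hq (fun y => zt k l * Ph k r (l + 1) y) s) x) t) ?_ (fun t t0 t1 => ?_)
    (fun t t0 t1 => ((Gt_deriv hF hF.ob1 hμ hϖ t0 t1).const_mul _).congr_deriv ?_)
    (fun t t0 t1 hz => ?_) ⟨h0, h1⟩
  · refine (LipschitzOnWith.of_dist_le' (K := C) fun a ha b hb => ?_).continuousOn
    rcases le_total a b with h | h
    · rw [dist_comm, Real.dist_eq, dist_comm, Real.dist_eq, abs_of_nonneg (sub_nonneg.2 h)]
      exact (hinc k r l hr le_rfl hl a b ha.1 h hb.2).2.2.2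
    · rw [Real.dist_eq, Real.dist_eq, abs_of_nonneg (sub_nonneg.2 h)]
      exact (hinc k r l hr le_rfl hl b a hb.1 h ha.2).2.2.2
  · refine (((Gt_deriv hF hF.ob0 hμ hϖ t0 t1).const_mul ((zt k l)⁻¹ ^ 2)).congr_deriv
      ?_).congr_of_eventuallyEq
      (mem_of_superset (Icc_mem_nhds t0 t1) fun y hy => gN_Gt hl hy.1 hy.2)
    congr 2
    funext s x
    unfold n1
    ring
  · congr 2
    funext s x
    unfold n2
    ring
  · obtain ⟨U', hU', hr'⟩ := rep_gap hr hl hU hrep t0.le t1.le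
    have hB := bk_Pg (r := r) hl t
    obtain ⟨g1, g2⟩ := hB.toLj.gr_n
    have a1 := Eg_Gt hl t0.le t1.le
      (a := fun s x => n1 (Hq (fun y => zt k l * Ph k r (l + 1) y) s) x)
      (Pg_Hq (r := r) hl t ▸ g1.1)
    have a2 := Eg_Gt hl t0.le t1.le
      (a := fun s x => n2 (Hq (fun y => zt k l * Ph k r (l + 1) y) s) x)
      (Pg_Hq (r := r) hl t ▸ g2.1)
    rw [← Pg_Hq hl] at a1 a2
    have hT : 0 < r l + t := add_pos_of_nonneg_of_pos (hr.1 ▸ hr.2 (Nat.zero_le l)) t0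
    rw [← a1, mul_eq_zero, or_iff_right (by positivity)] at hz
    rw [← a2]
    exact mul_pos (by positivity) (hr' _ g2 ▸ static hB hU' hT (hr' _ g1 ▸ hz))

end

end Vale.Agent.P367K
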