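import Vale.Agent.P367K.Jet1

/-! The equations for the derivatives. -/

namespace Vale.Agent.P367K

open MeasureTheory ProbabilityTheory Real Filter Topology Vale.Agent.P146M Vale.Agent.P146
  Vale.Agent.P146L
open scoped ContDiff

noncomputable section

/-- Exchange of derivatives.  `u s x = u s0 x + ∫ σ in s0..s, G σ x`; differentiate in `x` under
the integral (`intervalIntegral.hasDerivAt_integral_of_dominated_loc_of_deriv_le`, bound from
continuity on a compact set), then use the fundamental theorem of calculus. -/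
theorem clairaut {u u1 G G1 : ℝ → ℝ → ℝ} (hx : ∀ s x, HasDerivAt (u s) (u1 s x) x)
    (hs : ∀ s x, HasDerivAt (fun s => u s x) (G s x) s) (hG : ∀ s x, HasDerivAt (G s) (G1 s x) x)
    (c0 : Continuous fun p : ℝ × ℝ => G p.1 p.2) (c1 : Continuous fun p : ℝ × ℝ => G1 p.1 p.2)
    (s x : ℝ) : HasDerivAt (fun s => u1 s x) (G1 s x) s := by
  have h0 : ∀ y, Continuous fun σ => G σ y := fun y =>
    c0.comp (continuous_id.prodMk continuous_const)
  have h1 : Continuous fun σ => G1 σ x := c1.comp (continuous_id.prodMk continuous_const)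
  have h2 : ∀ t, u1 t x = u1 s x + ∫ σ in s..t, G1 σ x := fun t => by
    obtain ⟨C, hC⟩ := ((isCompact_uIcc (a := s) (b := t)).prod
      (isCompact_closedBall x 1)).exists_bound_of_continuousOn c1.continuousOn
    have h3 := (intervalIntegral.hasDerivAt_integral_of_dominated_loc_of_deriv_le (μ := volume)
      (a := s) (b := t) (F := fun y σ => G σ y) (F' := fun y σ => G1 σ y) (bound := fun _ => C)
      (Metric.closedBall_mem_nhds x one_pos)
      (Eventually.of_forall fun y => (h0 y).aestronglyMeasurable) ((h0 x).intervalIntegrable _ _)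
      h1.aestronglyMeasurable
      (Eventually.of_forall fun σ hσ y hy => hC (σ, y) ⟨Set.uIoc_subset_uIcc hσ, hy⟩)
      intervalIntegrable_const (Eventually.of_forall fun σ _ y _ => hG σ y)).2
    have h4 : (fun y => ∫ σ in s..t, G σ y) = fun y => u t y - u s y := funext fun y =>
      intervalIntegral.integral_eq_sub_of_hasDerivAt (fun σ _ => hs σ y)
        ((h0 y).intervalIntegrable _ _)
    rw [h4] at h3
    rw [h3.unique ((hx t x).sub (hx s x))]
    ring
  rw [funext h2]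
  exact (h1.integral_hasStrictDerivAt s s).hasDerivAt.const_add _

variable {Q : ℝ → ℝ → ℝ}

theorem Fl.t1 (h : Fl Q) (s x : ℝ) : HasDerivAt (fun s => jt 1 (Q s) x)
    (s * (jt 3 (Q s) x + 2 * jt 1 (Q s) x * jt 2 (Q s) x)) s := by
  have d := fun s n x => jt_d (h.lj s).sm n x
  have c1 := h.cont 1
  have c2 := h.cont 2
  have c3 := h.cont 3
  refine clairaut (u := fun s => jt 0 (Q s))
    (G1 := fun s x => s * (jt 3 (Q s) x + 2 * jt 1 (Q s) x * jt 2 (Q s) x))
    (fun s x => d s 0 x) h.t0 (fun s x => ?_)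
    (by fun_prop) (by fun_prop) s x
  refine (((d s 2 x).fun_add ((d s 1 x).fun_pow 2)).const_mul s).congr_deriv ?_
  ring

theorem Fl.t2 (h : Fl Q) (s x : ℝ) : HasDerivAt (fun s => jt 2 (Q s) x)
    (s * (jt 4 (Q s) x + 2 * jt 1 (Q s) x * jt 3 (Q s) x + 2 * jt 2 (Q s) x ^ 2)) s := by
  have d := fun s n x => jt_d (h.lj s).sm n x
  have c1 := h.cont 1
  have c2 := h.cont 2
  have c3 := h.cont 3
  have c4 := h.cont 4
  refine clairaut (u := fun s => jt 1 (Q s))
    (G1 := fun s x => s * (jt 4 (Q s) x + 2 * jt 1 (Q s) x * jt 3 (Q s) x + 2 * jt 2 (Q s) x ^ 2))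
    (fun s x => d s 1 x) h.t1 (fun s x => ?_)
    (by fun_prop) (by fun_prop) s x
  refine (((d s 3 x).fun_add (((d s 1 x).const_mul 2).fun_mul (d s 2 x))).const_mul s).congr_deriv ?_
  ring

theorem Fl.t3 (h : Fl Q) (s x : ℝ) : HasDerivAt (fun s => jt 3 (Q s) x)
    (s * (jt 5 (Q s) x + 2 * jt 1 (Q s) x * jt 4 (Q s) x + 6 * jt 2 (Q s) x * jt 3 (Q s) x)) s := by
  have d := fun s n x => jt_d (h.lj s).sm n x
  have c1 := h.cont 1
  have c2 := h.cont 2
  have c3 := h.cont 3
  have c4 := h.cont 4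
  have c5 := h.cont 5
  refine clairaut (u := fun s => jt 2 (Q s))
    (G1 := fun s x => s * (jt 5 (Q s) x + 2 * jt 1 (Q s) x * jt 4 (Q s) x +
      6 * jt 2 (Q s) x * jt 3 (Q s) x))
    (fun s x => d s 2 x) h.t2 (fun s x => ?_)
    (by fun_prop) (by fun_prop) s x
  refine ((((d s 4 x).fun_add (((d s 1 x).const_mul 2).fun_mul (d s 3 x))).fun_add
    (((d s 2 x).fun_pow 2).const_mul 2)).const_mul s).congr_deriv ?_
  ring

theorem Fl.t4 (h : Fl Q) (s x : ℝ) : HasDerivAt (fun s => jt 4 (Q s) x)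
    (s * (jt 6 (Q s) x + 2 * jt 1 (Q s) x * jt 5 (Q s) x + 8 * jt 2 (Q s) x * jt 4 (Q s) x +
      6 * jt 3 (Q s) x ^ 2)) s := by
  have d := fun s n x => jt_d (h.lj s).sm n x
  have c1 := h.cont 1
  have c2 := h.cont 2
  have c3 := h.cont 3
  have c4 := h.cont 4
  have c5 := h.cont 5
  have c6 := h.cont 6
  refine clairaut (u := fun s => jt 3 (Q s))
    (G1 := fun s x => s * (jt 6 (Q s) x + 2 * jt 1 (Q s) x * jt 5 (Q s) x +
      8 * jt 2 (Q s) x * jt 4 (Q s) x + 6 * jt 3 (Q s) x ^ 2))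
    (fun s x => d s 3 x) h.t3 (fun s x => ?_)
    (by fun_prop) (by fun_prop) s x
  refine ((((d s 5 x).fun_add (((d s 1 x).const_mul 2).fun_mul (d s 4 x))).fun_add
    (((d s 2 x).const_mul 6).fun_mul (d s 3 x))).const_mul s).congr_deriv ?_
  ring

theorem Fl.t5 (h : Fl Q) (s x : ℝ) : HasDerivAt (fun s => jt 5 (Q s) x)
    (s * (jt 7 (Q s) x + 2 * jt 1 (Q s) x * jt 6 (Q s) x + 10 * jt 2 (Q s) x * jt 5 (Q s) x +
      20 * jt 3 (Q s) x * jt 4 (Q s) x)) s := by
  have d := fun s n x => jt_d (h.lj s).sm n x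
  have c1 := h.cont 1
  have c2 := h.cont 2
  have c3 := h.cont 3
  have c4 := h.cont 4
  have c5 := h.cont 5
  have c6 := h.cont 6
  have c7 := h.cont 7
  refine clairaut (u := fun s => jt 4 (Q s))
    (G1 := fun s x => s * (jt 7 (Q s) x + 2 * jt 1 (Q s) x * jt 6 (Q s) x +
      10 * jt 2 (Q s) x * jt 5 (Q s) x + 20 * jt 3 (Q s) x * jt 4 (Q s) x))
    (fun s x => d s 4 x) h.t4 (fun s x => ?_)
    (by fun_prop) (by fun_prop) s x
  refine (((((d s 6 x).fun_add (((d s 1 x).const_mul 2).fun_mul (d s 5 x))).fun_add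
    (((d s 2 x).const_mul 8).fun_mul (d s 4 x))).fun_add (((d s 3 x).fun_pow 2).const_mul 6)).const_mul s).congr_deriv ?_
  ring

end

end Vale.Agent.P367K
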