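import Vale.Agent.P146L.Gap2

/-! Definitions for lemma K: the second moment of the susceptibility is quasi-convex on a gap. -/

namespace Vale.Agent.P367K

open MeasureTheory ProbabilityTheory Real Filter Topology Vale.Agent.P146M Vale.Agent.P146
  Vale.Agent.P146L
open scoped ContDiff

noncomputable section

/-- the `n`-th derivative -/
abbrev jt (n : ℕ) (P : ℝ → ℝ) : ℝ → ℝ := iteratedDeriv n P

/-- derivatives relative to the second derivative -/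
def uj (n : ℕ) (P : ℝ → ℝ) (x : ℝ) : ℝ := jt n P x / jt 2 P x

/-- smooth even functions all of whose derivatives are bounded -/
structure Lj (P : ℝ → ℝ) : Prop where
  sm : ContDiff ℝ ∞ P
  bd : ∀ n, ∃ C, ∀ x, |jt (n + 1) P x| ≤ C
  ev : ∀ x, P (-x) = P x

/-- `E = -λ' / 2 - w` with `w = P''`, `λ = w' / w` -/
def Ee (P : ℝ → ℝ) (x : ℝ) : ℝ := -(uj 4 P x - uj 3 P x ^ 2) / 2 - jt 2 P x

/-- `D = E' + λ E / 2` -/
def De (P : ℝ → ℝ) (x : ℝ) : ℝ :=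
  -(3 / 2) * jt 2 P x * uj 3 P x - (3 / 4) * uj 3 P x ^ 3 + (5 / 4) * uj 3 P x * uj 4 P x -
    uj 5 P x / 2

/-- the class preserved by the backward recursion -/
structure Bk (P : ℝ → ℝ) : Prop extends Lj P where
  pos : ∀ x, 0 < jt 2 P x
  rat : ∃ C, ∀ x, |uj 3 P x| ≤ C ∧ |uj 4 P x| ≤ C ∧ |uj 5 P x| ≤ C
  hE : ∀ x, 0 ≤ Ee P x
  hD : ∀ x, 0 ≤ x → De P x ≤ 0

/-- the class preserved by the forward recursion -/
structure Fw (U : ℝ → ℝ) : Prop extends Lj U where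
  c2 : ∀ x, jt 2 U x ≤ 0
  c3 : ∀ x, 0 ≤ x → 0 ≤ jt 3 U x

/-- the heat flow of `exp P` in the variable `s = √ time`, logarithmic form -/
def Hq (P : ℝ → ℝ) (s x : ℝ) : ℝ := log (∫ z, exp (P (x + s * z)) ∂γ1)

/-- the heat flow of the derivatives of `exp P` -/
def Fq (P : ℝ → ℝ) (j : ℕ) (s x : ℝ) : ℝ := ∫ z, jt j (fun y => exp (P y)) (x + s * z) ∂γ1

/-- normalised derivatives -/
def qq (P : ℝ → ℝ) (j : ℕ) (s x : ℝ) : ℝ := Fq P j s x / Fq P 0 s x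

/-- solutions of `∂_s Q = s (Q'' + Q' ^ 2)` with bounded derivatives -/
structure Fl (Q : ℝ → ℝ → ℝ) : Prop where
  lj : ∀ s, Lj (Q s)
  cont : ∀ n, Continuous fun p : ℝ × ℝ => jt n (Q p.1) p.2
  bd : ∀ n, ∃ C, ∀ s x, |jt (n + 1) (Q s) x| ≤ C
  t0 : ∀ s x, HasDerivAt (fun s => Q s x) (s * (jt 2 (Q s) x + jt 1 (Q s) x ^ 2)) s

/-- integrand of the first derivative -/
def n1 (P : ℝ → ℝ) (x : ℝ) : ℝ := jt 3 P x ^ 2 - 2 * jt 2 P x ^ 3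

/-- integrand of the second derivative -/
def n2 (P : ℝ → ℝ) (x : ℝ) : ℝ :=
  jt 4 P x ^ 2 - 12 * jt 2 P x * jt 3 P x ^ 2 + 6 * jt 2 P x ^ 4

/-- integral against the tilted Gaussian of variance `T` -/
def Iw (T : ℝ) (U P φ : ℝ → ℝ) : ℝ :=
  ∫ z, exp (U (√T * z) + P (√T * z)) * φ (√T * z) ∂γ1

/-- expectation at the time `t` inside a gap of length `v` -/
def Gt (μ : Measure ℝ) (ϖ : ℝ → ℝ) (Q : ℝ → ℝ → ℝ) (v : ℝ) (a : ℝ → ℝ → ℝ) (t : ℝ) : ℝ :=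
  ∫ y, ϖ y * ∫ z, exp (Q √(v - t) (y + √t * z)) * a √(v - t) (y + √t * z) ∂γ1 ∂μ

/-- data of the static inequality on the half line -/
structure SD (ρ m w a b c v v1 v2 : ℝ → ℝ) (C : ℝ) : Prop where
  dρ : ∀ x, HasDerivAt ρ (ρ x * (m x - v x)) x
  dm : ∀ x, HasDerivAt m (w x) x
  dw : ∀ x, HasDerivAt w (a x * w x) x
  da : ∀ x, HasDerivAt a (b x - a x ^ 2) x
  db : ∀ x, HasDerivAt b (c x - a x * b x) x
  dv : ∀ x, HasDerivAt v (v1 x) x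
  dv1 : ∀ x, HasDerivAt v1 (v2 x) x
  ρ0 : ∀ x, 0 < ρ x
  w0 : ∀ x, 0 < w x
  m0 : m 0 = 0
  a0 : a 0 = 0
  v0 : v 0 = 0
  hv1 : ∀ x, 0 < v1 x
  hv2 : ∀ x, 0 ≤ x → v2 x ≤ 0
  hE : ∀ x, 0 ≤ -(b x - a x ^ 2) / 2 - w x
  hD : ∀ x, 0 ≤ x →
    -(3 / 2) * w x * a x - (3 / 4) * a x ^ 3 + (5 / 4) * a x * b x - c x / 2 ≤ 0
  bd : ∀ x, |m x| ≤ C ∧ |w x| ≤ C ∧ |a x| ≤ C ∧ |b x| ≤ C ∧ |v1 x| ≤ C ∧ |v x| ≤ C * (1 + |x|)
  int : IntegrableOn (fun x => (1 + x ^ 2) * ρ x) (Set.Ioi 0)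
  lim : Tendsto (fun x => (1 + x ^ 2) * ρ x) atTop (𝓝 0)

end

end Vale.Agent.P367K
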