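import Vale.Agent.P367K.Heat2

/-! Positivity of the second derivative and bounds for the ratios along the flow. -/

namespace Vale.Agent.P367K

open MeasureTheory ProbabilityTheory Real Filter Topology Vale.Agent.P146M Vale.Agent.P146
  Vale.Agent.P146L
open scoped ContDiff

noncomputable section

/-- a pointwise nonnegative bilinear expression stays nonnegative after integration in each
variable (integrate in `a` for fixed `b`, then in `b`) -/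
theorem quad_int {ι : Type} [Fintype ι] {μ : Measure ℝ} (c : ι → ι → ℝ) {e : ι → ℝ → ℝ}
    (he : ∀ i, Integrable (e i) μ) (h : ∀ a b, 0 ≤ ∑ i, ∑ j, c i j * (e i a * e j b)) :
    0 ≤ ∑ i, ∑ j, c i j * ((∫ a, e i a ∂μ) * ∫ b, e j b ∂μ) := by
  have h1 : ∀ b, 0 ≤ ∑ i, ∑ j, c i j * ((∫ a, e i a ∂μ) * e j b) := fun b => by
    have h2 : 0 ≤ ∫ a, ∑ i, ∑ j, c i j * (e i a * e j b) ∂μ := integral_nonneg fun a => h a b
    rw [integral_finsetSum _ fun i _ =>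
      integrable_finsetSum _ fun j _ => ((he i).mul_const _).const_mul _] at h2
    refine h2.trans_eq (Finset.sum_congr rfl fun i _ => ?_)
    rw [integral_finsetSum _ fun j _ => ((he i).mul_const _).const_mul _]
    simp only [integral_const_mul, integral_mul_const]
  have h2 : 0 ≤ ∫ b, ∑ i, ∑ j, c i j * ((∫ a, e i a ∂μ) * e j b) ∂μ := integral_nonneg h1
  rw [integral_finsetSum _ fun i _ =>
    integrable_finsetSum _ fun j _ => ((he j).const_mul _).const_mul _] at h2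
  refine h2.trans_eq (Finset.sum_congr rfl fun i _ => ?_)
  rw [integral_finsetSum _ fun j _ => ((he j).const_mul _).const_mul _]
  simp only [integral_const_mul]

theorem Wb_quad {μ : Measure ℝ} {e : ℕ → ℝ → ℝ} (he : ∀ j, Integrable (e j) μ) (c0 c1 c2 c3 : ℝ)
    (h : ∀ a b, 0 ≤ c0 * (e 2 a * e 0 b - 2 * (e 1 a * e 1 b) + e 0 a * e 2 b) +
      c1 * (e 3 a * e 0 b - e 2 a * e 1 b - e 1 a * e 2 b + e 0 a * e 3 b) +
      c2 * (e 4 a * e 0 b - 2 * (e 2 a * e 2 b) + e 0 a * e 4 b) +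
      c3 * (e 5 a * e 0 b + e 4 a * e 1 b - 2 * (e 3 a * e 2 b) - 2 * (e 2 a * e 3 b) +
        e 1 a * e 4 b + e 0 a * e 5 b)) {F : ℕ → ℝ} (hF : ∀ j, F j = ∫ a, e j a ∂μ) :
    0 ≤ c0 * (F 2 * F 0 - F 1 ^ 2) + c1 * (F 3 * F 0 - F 1 * F 2) + c2 * (F 4 * F 0 - F 2 ^ 2) +
      c3 * (F 5 * F 0 + F 1 * F 4 - 2 * (F 2 * F 3)) := by
  have h1 := quad_int (ι := Fin 6) (μ := μ) ![![0, 0, c0, c1, c2, c3], ![0, -2 * c0, -c1, 0, c3, 0],
    ![c0, -c1, -2 * c2, -2 * c3, 0, 0], ![c1, 0, -2 * c3, 0, 0, 0], ![c2, c3, 0, 0, 0, 0],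
    ![c3, 0, 0, 0, 0, 0]] (e := fun i => e i.val) (fun i => he _) fun a b => by
      have h2 := h a b
      simp [Fin.sum_univ_succ]
      linarith
  simp [Fin.sum_univ_succ, ← hF] at h1
  linarith

/-- continuous functions are bounded on balls -/
theorem Wb_cpt {E G : Type} [NormedAddCommGroup E] [ProperSpace E] [NormedAddCommGroup G]
    {F : E → G} (hF : Continuous F) (C : ℝ) : ∃ K, 0 ≤ K ∧ ∀ v, ‖v‖ ≤ C → ‖F v‖ ≤ K := by
  obtain ⟨K, hK⟩ := (isCompact_closedBall (0 : E) C).exists_bound_of_continuousOn hF.continuousOn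
  exact ⟨max K 0, le_max_right _ _, fun v hv =>
    (hK v (mem_closedBall_zero_iff.2 hv)).trans (le_max_left _ _)⟩

theorem Wb_comb {E d u v A B B' K X : ℝ} (hE : 0 ≤ E) (hu : 0 ≤ u) (hv : 0 ≤ v) (hA : |A| ≤ K)
    (hB : |B| ≤ K) (hB' : |B'| ≤ K) (hX : X = E * (d ^ 2 * A + u * B + v * B')) :
    |X| ≤ K * (E * (d ^ 2 + u + v)) := by
  have h1 : |d ^ 2 * A + u * B + v * B'| ≤ K * (d ^ 2 + u + v) := by
    have a1 := mul_le_mul_of_nonneg_left hA (sq_nonneg d)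
    have a2 := mul_le_mul_of_nonneg_left hB hu
    have a3 := mul_le_mul_of_nonneg_left hB' hv
    have a4 := abs_add_three (d ^ 2 * A) (u * B) (v * B')
    rw [abs_mul, abs_mul, abs_mul, abs_of_nonneg (sq_nonneg d), abs_of_nonneg hu,
      abs_of_nonneg hv] at a4
    linarith
  rw [hX, abs_mul, abs_of_nonneg hE, mul_left_comm]
  exact mul_le_mul_of_nonneg_left h1 hE

/-- the coefficients of the remainders -/
def Wb_r (p q : ℝ × ℝ × ℝ × ℝ × ℝ) : (ℝ × ℝ × ℝ) × ℝ × ℝ × ℝ :=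
  ((p.1 + q.1, (p.1 + q.1) ^ 2, (p.1 + q.1) ^ 3), p.2.2.1 + 3 * p.1 - q.1,
    p.2.2.2.1 + 4 * p.1 * p.2.2.1 + 3 * p.2.1 + 6 * p.1 ^ 2 - 2 * q.1 ^ 2 - q.2.1,
    p.2.2.2.2 + 5 * p.1 * p.2.2.2.1 + 10 * p.2.1 * p.2.2.1 + 10 * p.1 ^ 2 * p.2.2.1 +
      15 * p.1 * p.2.1 + 10 * p.1 ^ 3 +
      (p.2.2.2.1 + 4 * p.1 * p.2.2.1 + 3 * p.2.1 + 6 * p.1 ^ 2) * q.1 -
      2 * (p.2.2.1 + 3 * p.1) * (q.1 ^ 2 + q.2.1) - 2 * q.1 ^ 3)

variable {P : ℝ → ℝ}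

/-- Let `e_j = jt j (exp ∘ P)`, `α = P' a`, `β = P' b`, `w = P''`.  By `jt_exp`,
`H0 = e2 a e0 b - 2 e1 a e1 b + e0 a e2 b = e0 a e0 b (w a + w b + (α - β) ^ 2)`, and `Hj` equals
`e0 a e0 b ((α - β) ^ 2 (α + β) ^ j + O (w a + w b))` because `|jt n P| ≤ C w` for `n = 2, …, 5`
(`jt_eq_uj`, `Bk.rat`) and `α, β, w` are bounded. -/
theorem Bk.H_bd (h : Bk P) : ∃ C, 0 ≤ C ∧ ∀ a b, ∀ e : ℕ → ℝ → ℝ,
    (∀ j, e j = jt j fun y => exp (P y)) →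
    |e 3 a * e 0 b - e 2 a * e 1 b - e 1 a * e 2 b + e 0 a * e 3 b| ≤
      C * (e 2 a * e 0 b - 2 * (e 1 a * e 1 b) + e 0 a * e 2 b) ∧
    |e 4 a * e 0 b - 2 * (e 2 a * e 2 b) + e 0 a * e 4 b| ≤
      C * (e 2 a * e 0 b - 2 * (e 1 a * e 1 b) + e 0 a * e 2 b) ∧
    |e 5 a * e 0 b + e 4 a * e 1 b - 2 * (e 3 a * e 2 b) - 2 * (e 2 a * e 3 b) + e 1 a * e 4 b +
      e 0 a * e 5 b| ≤ C * (e 2 a * e 0 b - 2 * (e 1 a * e 1 b) + e 0 a * e 2 b) := by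
  obtain ⟨C1, h1⟩ := h.bd 0
  obtain ⟨C2, h2⟩ := h.bd 1
  obtain ⟨C3, h3⟩ := h.rat
  obtain ⟨K, hK0, hK⟩ := Wb_cpt (F := fun p : (ℝ × ℝ × ℝ × ℝ × ℝ) × ℝ × ℝ × ℝ × ℝ × ℝ =>
    Wb_r p.1 p.2) (by unfold Wb_r; fun_prop) (max C1 (max C2 C3))
  have hb : ∀ x, ‖(jt 1 P x, jt 2 P x, uj 3 P x, uj 4 P x, uj 5 P x)‖ ≤ max C1 (max C2 C3) :=
    fun x => by
      have a : C3 ≤ max C1 (max C2 C3) := (le_max_right _ _).trans (le_max_right _ _)
      simp only [norm_prod_le_iff, Real.norm_eq_abs]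
      exact ⟨(h1 x).trans (le_max_left _ _), (h2 x).trans ((le_max_left _ _).trans
        (le_max_right _ _)), (h3 x).1.trans a, (h3 x).2.1.trans a, (h3 x).2.2.trans a⟩
  refine ⟨K, hK0, fun a b e he => ?_⟩
  have k1 := hK (_, _) (norm_prod_le_iff.2 ⟨hb a, hb b⟩)
  have k2 := hK (_, _) (norm_prod_le_iff.2 ⟨hb b, hb a⟩)
  simp only [Wb_r, norm_prod_le_iff, Real.norm_eq_abs] at k1 k2
  have e0 : ∀ x, e 0 x = exp (P x) := fun x => by rw [he]; rfl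
  obtain ⟨a1, a2, a3, a4, a5⟩ := jt_exp h.sm a
  obtain ⟨b1, b2, b3, b4, b5⟩ := jt_exp h.sm b
  rw [jt_eq_uj (h.pos a).ne' 3] at a3 a4 a5
  rw [jt_eq_uj (h.pos a).ne' 4] at a4 a5
  rw [jt_eq_uj (h.pos a).ne' 5] at a5
  rw [jt_eq_uj (h.pos b).ne' 3] at b3 b4 b5
  rw [jt_eq_uj (h.pos b).ne' 4] at b4 b5
  rw [jt_eq_uj (h.pos b).ne' 5] at b5
  rw [e0, e0, he 1, he 2, he 3, he 4, he 5, a1, a2, a3, a4, a5, b1, b2, b3, b4, b5]
  have hE := (mul_pos (exp_pos (P a)) (exp_pos (P b))).le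
  exact ⟨(Wb_comb (d := jt 1 P a - jt 1 P b) hE (h.pos a).le (h.pos b).le k1.1.1 k1.2.1 k2.2.1
      (by ring)).trans_eq (by ring),
    (Wb_comb (d := jt 1 P a - jt 1 P b) hE (h.pos a).le (h.pos b).le k1.1.2.1 k1.2.2.1 k2.2.2.1
      (by ring)).trans_eq (by ring),
    (Wb_comb (d := jt 1 P a - jt 1 P b) hE (h.pos a).le (h.pos b).le k1.1.2.2 k1.2.2.2 k2.2.2.2
      (by ring)).trans_eq (by ring)⟩

/-- `H0 ≥ e0 a e0 b (w a + w b)`, so `F2 F0 - F1 ^ 2 ≥ F0 ∫ e0 w > 0`. -/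
theorem Bk.flow_pos (h : Bk P) (s x : ℝ) : 0 < jt 2 (Hq P s) x := by
  have hi := fun j => h.toLj.int_Fq j s x
  have h0 := h.toLj.Fq_pos s x
  have h1 : ∀ m : ℝ, 0 < Fq P 2 s x - 2 * m * Fq P 1 s x + m ^ 2 * Fq P 0 s x := fun m => by
    have hp : ∀ z, 0 < jt 2 (fun y => exp (P y)) (x + s * z) -
        2 * m * jt 1 (fun y => exp (P y)) (x + s * z) +
        m ^ 2 * jt 0 (fun y => exp (P y)) (x + s * z) := fun z => by
      rw [(jt_exp h.sm _).1, (jt_exp h.sm _).2.1, jt, jt, jt, iteratedDeriv_zero]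
      exact (mul_pos (exp_pos (P (x + s * z))) (add_pos_of_pos_of_nonneg (h.pos (x + s * z))
        (sq_nonneg (jt 1 P (x + s * z) - m)))).trans_eq (by ring)
    have ha : Integrable (fun z => jt 2 (fun y => exp (P y)) (x + s * z) -
        2 * m * jt 1 (fun y => exp (P y)) (x + s * z)) γ1 := (hi 2).sub ((hi 1).const_mul (2 * m))
    have h2 := (integral_pos_iff_support_of_nonneg (fun z => (hp z).le)
      (ha.add ((hi 0).const_mul (m ^ 2)))).2 (by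
        rw [show Function.support _ = Set.univ from Set.eq_univ_of_forall fun z => (hp z).ne']
        simp)
    rwa [integral_add ha ((hi 0).const_mul _), integral_sub (hi 2) ((hi 1).const_mul _),
      integral_const_mul, integral_const_mul] at h2
  rw [(h.toLj.jt_Hq s x).2.1]
  refine (div_pos (h1 (Fq P 1 s x / Fq P 0 s x)) h0).trans_eq ?_
  simp only [qq]
  field_simp
  ring

theorem Wb_ratio {C f w F : ℝ} (hF : 0 < F) (hw : 0 < w) (h1 : 0 ≤ C * (w * F ^ 2) + f)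
    (h2 : 0 ≤ C * (w * F ^ 2) - f) : |f / F ^ 2 / w| ≤ C := by
  rw [div_div, abs_div, abs_of_pos (by positivity : 0 < F ^ 2 * w), div_le_iff₀ (by positivity),
    abs_le]
  constructor <;> linarith

/-- With `ω0 = q2 - q1 ^ 2 = jt 2`, `ω1 = q3 - q1 q2`, `ω2 = q4 - q2 ^ 2`,
`ω3 = q5 + q1 q4 - 2 q2 q3`: `|ωj| ≤ C ω0` by `quad_int`, `H_bd`, and `jt 3 = ω1 - 2 q1 ω0`,
`jt 4 = ω2 - 4 q1 ω1 + (6 q1 ^ 2 - 2 q2) ω0`,
`jt 5 = ω3 - 6 q1 ω2 + 3 (6 q1 ^ 2 - 2 q2) ω1 + (18 q1 q2 - 24 q1 ^ 3 - 2 q3) ω0`. -/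
theorem Bk.flow_rat (h : Bk P) : ∃ C, ∀ s x,
    |uj 3 (Hq P s) x| ≤ C ∧ |uj 4 (Hq P s) x| ≤ C ∧ |uj 5 (Hq P s) x| ≤ C := by
  obtain ⟨C, -, hC⟩ := h.H_bd
  obtain ⟨C1, -, h1⟩ := h.toLj.qq_bd 1
  obtain ⟨C2, -, h2⟩ := h.toLj.qq_bd 2
  obtain ⟨C3, -, h3⟩ := h.toLj.qq_bd 3
  obtain ⟨K, -, hK⟩ := Wb_cpt (F := fun p : (ℝ × ℝ × ℝ) × ℝ × ℝ × ℝ =>
    (p.2.1 - 2 * p.1.1, p.2.2.1 - 4 * p.1.1 * p.2.1 + (6 * p.1.1 ^ 2 - 2 * p.1.2.1),
      p.2.2.2 - 6 * p.1.1 * p.2.2.1 + 3 * (6 * p.1.1 ^ 2 - 2 * p.1.2.1) * p.2.1 +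
        (18 * p.1.1 * p.1.2.1 - 24 * p.1.1 ^ 3 - 2 * p.1.2.2))) (by fun_prop)
    (max (max C1 (max C2 C3)) C)
  refine ⟨K, fun s x => ?_⟩
  have h0 := h.toLj.Fq_pos s x
  have hw := h.flow_pos s x
  obtain ⟨-, j2, j3, j4, j5⟩ := h.toLj.jt_Hq s x
  have hq := fun c0 c1 c2 c3 hp => Wb_quad
    (e := fun j z => jt j (fun y => exp (P y)) (x + s * z)) (fun j => h.toLj.int_Fq j s x)
    c0 c1 c2 c3 hp (F := fun j => Fq P j s x) fun _ => rfl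
  have hH := fun a b => hC (x + s * a) (x + s * b) _ fun _ => rfl
  simp only [abs_le] at hH
  have e : Fq P 2 s x * Fq P 0 s x - Fq P 1 s x ^ 2 = jt 2 (Hq P s) x * Fq P 0 s x ^ 2 := by
    rw [j2, qq, qq]
    field_simp
  simp only [e] at hq
  have r1 := Wb_ratio (C := C) (f := Fq P 3 s x * Fq P 0 s x - Fq P 1 s x * Fq P 2 s x) h0 hw
    (by linarith [hq C 1 0 0 fun a b => by linarith [(hH a b).1.1]])
    (by linarith [hq C (-1) 0 0 fun a b => by linarith [(hH a b).1.2]])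
  have r2 := Wb_ratio (C := C) (f := Fq P 4 s x * Fq P 0 s x - Fq P 2 s x ^ 2) h0 hw
    (by linarith [hq C 0 1 0 fun a b => by linarith [(hH a b).2.1.1]])
    (by linarith [hq C 0 (-1) 0 fun a b => by linarith [(hH a b).2.1.2]])
  have r3 := Wb_ratio (C := C) (f := Fq P 5 s x * Fq P 0 s x + Fq P 1 s x * Fq P 4 s x -
      2 * (Fq P 2 s x * Fq P 3 s x)) h0 hw
    (by linarith [hq C 0 0 1 fun a b => by linarith [(hH a b).2.2.1]])
    (by linarith [hq C 0 0 (-1) fun a b => by linarith [(hH a b).2.2.2]])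
  have a : max C1 (max C2 C3) ≤ max (max C1 (max C2 C3)) C := le_max_left _ _
  have k := hK ((qq P 1 s x, qq P 2 s x, qq P 3 s x), _, _, _) (by
    simp only [norm_prod_le_iff, Real.norm_eq_abs]
    exact ⟨⟨(h1 s x).trans ((le_max_left _ _).trans a), (h2 s x).trans
      (((le_max_left _ _).trans (le_max_right _ _)).trans a), (h3 s x).trans
      (((le_max_right _ _).trans (le_max_right _ _)).trans a)⟩, r1.trans (le_max_right _ _),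
      r2.trans (le_max_right _ _), r3.trans (le_max_right _ _)⟩)
  simp only [norm_prod_le_iff, Real.norm_eq_abs] at k
  have q : ∀ j, Fq P j s x = qq P j s x * Fq P 0 s x := fun j => (div_mul_cancel₀ _ h0.ne').symm
  rw [q 1, q 2, q 3, q 4, q 5] at k
  rw [uj, uj, uj, j3, j4, j5]
  have e2 : qq P 2 s x = jt 2 (Hq P s) x + qq P 1 s x ^ 2 := by linarith
  generalize jt 2 (Hq P s) x = w at hw k e2
  rw [e2] at k ⊢
  refine ⟨(congrArg _ ?_).trans_le k.1, (congrArg _ ?_).trans_le k.2.1,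
    (congrArg _ ?_).trans_le k.2.2⟩ <;>
  · field_simp
    ring

end

end Vale.Agent.P367K
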