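import Vale.Agent.P367K.MaxP
import Vale.Agent.P367K.Wb
import Vale.Agent.P367K.Jet2

/-! The backward class is preserved by the flow. -/

namespace Vale.Agent.P367K

open MeasureTheory ProbabilityTheory Real Filter Topology Vale.Agent.P146M Vale.Agent.P146
  Vale.Agent.P146L
open scoped ContDiff

noncomputable section

variable {P : ℝ → ℝ} {Q : ℝ → ℝ → ℝ}

/-- first space derivative of `E` -/
def FlowB_E1 (P : ℝ → ℝ) (x : ℝ) : ℝ :=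
  -jt 2 P x * uj 3 P x - uj 3 P x ^ 3 + 3 / 2 * uj 3 P x * uj 4 P x - uj 5 P x / 2

/-- second space derivative of `E` -/
def FlowB_E2 (P : ℝ → ℝ) (x : ℝ) : ℝ :=
  -jt 2 P x * uj 4 P x + 3 * uj 3 P x ^ 4 - 6 * uj 3 P x ^ 2 * uj 4 P x +
    2 * uj 3 P x * uj 5 P x + 3 / 2 * uj 4 P x ^ 2 - uj 6 P x / 2

/-- first space derivative of `D` -/
def FlowB_D1 (P : ℝ → ℝ) (x : ℝ) : ℝ :=
  -(3 / 2) * jt 2 P x * uj 4 P x + 9 / 4 * uj 3 P x ^ 4 - 19 / 4 * uj 3 P x ^ 2 * uj 4 P x +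
    7 / 4 * uj 3 P x * uj 5 P x + 5 / 4 * uj 4 P x ^ 2 - uj 6 P x / 2

/-- second space derivative of `D` -/
def FlowB_D2 (P : ℝ → ℝ) (x : ℝ) : ℝ :=
  -(3 / 2) * jt 2 P x * uj 5 P x - 9 * uj 3 P x ^ 5 + 93 / 4 * uj 3 P x ^ 3 * uj 4 P x -
    33 / 4 * uj 3 P x ^ 2 * uj 5 P x - 12 * uj 3 P x * uj 4 P x ^ 2 +
    9 / 4 * uj 3 P x * uj 6 P x + 17 / 4 * uj 4 P x * uj 5 P x - uj 7 P x / 2

theorem FlowB_w (h : ContDiff ℝ ∞ P) {x : ℝ} (h0 : jt 2 P x ≠ 0) :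
    HasDerivAt (jt 2 P) (uj 3 P x * jt 2 P x) x := by
  have h1 := jt_d h 2 x
  rwa [jt_eq_uj h0 (2 + 1)] at h1

theorem FlowB_dE (h : ContDiff ℝ ∞ P) {x : ℝ} (h0 : jt 2 P x ≠ 0) :
    HasDerivAt (Ee P) (FlowB_E1 P x) x := by
  have hw := FlowB_w h h0
  have ha := uj_d h h0 3
  have hb := uj_d h h0 4
  refine (((hb.fun_sub (ha.fun_pow 2)).fun_neg.div_const 2).fun_sub hw).congr_deriv ?_
  simp only [FlowB_E1]
  norm_num
  ring

theorem FlowB_dE1 (h : ContDiff ℝ ∞ P) {x : ℝ} (h0 : jt 2 P x ≠ 0) :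
    HasDerivAt (FlowB_E1 P) (FlowB_E2 P x) x := by
  have hw := FlowB_w h h0
  have ha := uj_d h h0 3
  have hb := uj_d h h0 4
  have hc := uj_d h h0 5
  refine ((((hw.fun_neg.fun_mul ha).fun_sub (ha.fun_pow 3)).fun_add
    ((ha.const_mul (3 / 2)).fun_mul hb)).fun_sub (hc.div_const 2)).congr_deriv ?_
  simp only [FlowB_E2]
  norm_num
  ring

theorem FlowB_dD (h : ContDiff ℝ ∞ P) {x : ℝ} (h0 : jt 2 P x ≠ 0) :
    HasDerivAt (De P) (FlowB_D1 P x) x := by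
  have hw := FlowB_w h h0
  have ha := uj_d h h0 3
  have hb := uj_d h h0 4
  have hc := uj_d h h0 5
  refine (((((hw.const_mul (-(3 / 2))).fun_mul ha).fun_sub
    ((ha.fun_pow 3).const_mul (3 / 4))).fun_add
    ((ha.const_mul (5 / 4)).fun_mul hb)).fun_sub (hc.div_const 2)).congr_deriv ?_
  simp only [FlowB_D1]
  norm_num
  ring

theorem FlowB_dD1 (h : ContDiff ℝ ∞ P) {x : ℝ} (h0 : jt 2 P x ≠ 0) :
    HasDerivAt (FlowB_D1 P) (FlowB_D2 P x) x := by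
  have hw := FlowB_w h h0
  have ha := uj_d h h0 3
  have hb := uj_d h h0 4
  have hc := uj_d h h0 5
  have hd := uj_d h h0 6
  refine (((((((hw.const_mul (-(3 / 2))).fun_mul hb).fun_add
    ((ha.fun_pow 4).const_mul (9 / 4))).fun_sub
    (((ha.fun_pow 2).const_mul (19 / 4)).fun_mul hb)).fun_add
    ((ha.const_mul (7 / 4)).fun_mul hc)).fun_add
    ((hb.fun_pow 2).const_mul (5 / 4))).fun_sub (hd.div_const 2)).congr_deriv ?_
  simp only [FlowB_D2]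
  norm_num
  ring

/-- the logarithmic time derivative of the second derivative -/
def FlowB_t (P : ℝ → ℝ) (x : ℝ) : ℝ := uj 4 P x + 2 * jt 1 P x * uj 3 P x + 2 * jt 2 P x

theorem FlowB_tw (h : Fl Q) {s x : ℝ} (h0 : jt 2 (Q s) x ≠ 0) :
    HasDerivAt (fun s => jt 2 (Q s) x) (s * (jt 2 (Q s) x * FlowB_t (Q s) x)) s := by
  refine (h.t2 s x).congr_deriv ?_
  rw [jt_eq_uj h0 4, jt_eq_uj h0 3, FlowB_t]
  ring

theorem FlowB_tu (h : Fl Q) {s x A : ℝ} (h0 : jt 2 (Q s) x ≠ 0) {n : ℕ}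
    (hn : HasDerivAt (fun s => jt n (Q s) x) (s * (A * jt 2 (Q s) x)) s) :
    HasDerivAt (fun s => uj n (Q s) x) (s * (A - uj n (Q s) x * FlowB_t (Q s) x)) s := by
  refine (hn.fun_div (FlowB_tw h h0) h0).congr_deriv ?_
  rw [jt_eq_uj h0 n]
  field_simp

theorem FlowB_ta (h : Fl Q) {s x : ℝ} (h0 : jt 2 (Q s) x ≠ 0) :
    HasDerivAt (fun s => uj 3 (Q s) x) (s * ((uj 5 (Q s) x + 2 * jt 1 (Q s) x * uj 4 (Q s) x +
      6 * jt 2 (Q s) x * uj 3 (Q s) x) - uj 3 (Q s) x * FlowB_t (Q s) x)) s := by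
  refine FlowB_tu h h0 ((h.t3 s x).congr_deriv ?_)
  rw [jt_eq_uj h0 5, jt_eq_uj h0 4, jt_eq_uj h0 3]
  ring

theorem FlowB_tb (h : Fl Q) {s x : ℝ} (h0 : jt 2 (Q s) x ≠ 0) :
    HasDerivAt (fun s => uj 4 (Q s) x) (s * ((uj 6 (Q s) x + 2 * jt 1 (Q s) x * uj 5 (Q s) x +
      8 * jt 2 (Q s) x * uj 4 (Q s) x + 6 * jt 2 (Q s) x * uj 3 (Q s) x ^ 2) -
      uj 4 (Q s) x * FlowB_t (Q s) x)) s := by
  refine FlowB_tu h h0 ((h.t4 s x).congr_deriv ?_)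
  rw [jt_eq_uj h0 6, jt_eq_uj h0 5, jt_eq_uj h0 4, jt_eq_uj h0 3]
  ring

theorem FlowB_tc (h : Fl Q) {s x : ℝ} (h0 : jt 2 (Q s) x ≠ 0) :
    HasDerivAt (fun s => uj 5 (Q s) x) (s * ((uj 7 (Q s) x + 2 * jt 1 (Q s) x * uj 6 (Q s) x +
      10 * jt 2 (Q s) x * uj 5 (Q s) x + 20 * jt 2 (Q s) x * uj 3 (Q s) x * uj 4 (Q s) x) -
      uj 5 (Q s) x * FlowB_t (Q s) x)) s := by
  refine FlowB_tu h h0 ((h.t5 s x).congr_deriv ?_)
  rw [jt_eq_uj h0 7, jt_eq_uj h0 6, jt_eq_uj h0 5, jt_eq_uj h0 4, jt_eq_uj h0 3]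
  ring

theorem FlowB_tE (h : Fl Q) {s x : ℝ} (h0 : jt 2 (Q s) x ≠ 0) :
    HasDerivAt (fun s => Ee (Q s) x) (s * (FlowB_E2 (Q s) x +
      2 * (uj 3 (Q s) x + jt 1 (Q s) x) * FlowB_E1 (Q s) x +
      -2 * (2 * Ee (Q s) x + jt 2 (Q s) x) * Ee (Q s) x)) s := by
  have hw := FlowB_tw h h0
  have ha := FlowB_ta h h0
  have hb := FlowB_tb h h0
  refine (((hb.fun_sub (ha.fun_pow 2)).fun_neg.div_const 2).fun_sub hw).congr_deriv ?_
  simp only [FlowB_E1, FlowB_E2, FlowB_t, Ee]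
  norm_num
  ring

theorem FlowB_tD (h : Fl Q) {s x : ℝ} (h0 : jt 2 (Q s) x ≠ 0) :
    HasDerivAt (fun s => De (Q s) x) (s * (FlowB_D2 (Q s) x +
      2 * (uj 3 (Q s) x + jt 1 (Q s) x) * FlowB_D1 (Q s) x +
      -2 * (5 * Ee (Q s) x + jt 2 (Q s) x) * De (Q s) x +
      3 * uj 3 (Q s) x * Ee (Q s) x ^ 2)) s := by
  have hw := FlowB_tw h h0
  have ha := FlowB_ta h h0
  have hb := FlowB_tb h h0
  have hc := FlowB_tc h h0
  refine (((((hw.const_mul (-(3 / 2))).fun_mul ha).fun_sub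
    ((ha.fun_pow 3).const_mul (3 / 4))).fun_add
    ((ha.const_mul (5 / 4)).fun_mul hb)).fun_sub (hc.div_const 2)).congr_deriv ?_
  simp only [FlowB_D1, FlowB_D2, FlowB_t, Ee, De]
  norm_num
  ring

theorem FlowB_cu (h : Fl Q) (h0 : ∀ s x, jt 2 (Q s) x ≠ 0) (n : ℕ) :
    Continuous fun p : ℝ × ℝ => uj n (Q p.1) p.2 :=
  (h.cont n).div (h.cont 2) fun p => h0 p.1 p.2

theorem FlowB_neg (h : Lj P) (h0 : ∀ x, 0 < jt 2 P x) (hE : ∀ x, 0 ≤ Ee P x) {x : ℝ}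
    (hx : 0 ≤ x) : uj 3 P x ≤ 0 := by
  have d1 : ∀ y, HasDerivAt (jt 1 P) (jt 2 P y) y := fun y => jt_d h.sm 1 y
  have d2 : ∀ y, HasDerivAt (fun y => uj 3 P y + 2 * jt 1 P y) (-2 * Ee P y) y := fun y => by
    refine ((uj_d h.sm (h0 y).ne' 3).fun_add ((d1 y).const_mul 2)).congr_deriv ?_
    simp only [Ee]
    norm_num
    ring
  have m1 : Monotone (jt 1 P) := monotone_of_hasDerivAt_nonneg d1 fun y => (h0 y).le
  have m2 : Antitone fun y => uj 3 P y + 2 * jt 1 P y :=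
    antitone_of_hasDerivAt_nonpos d2 fun y => by
      have := hE y
      simp only [Pi.zero_apply]
      linarith
  have z1 : jt 1 P 0 = 0 := h.odd_zero 0
  have z3 : jt 3 P 0 = 0 := h.odd_zero 1
  have a1 := m1 hx
  have a2 := m2 hx
  simp only [uj, z1, z3, zero_div] at a1 a2
  simp only [uj]
  linarith

theorem FlowB_bd {a b c m w C : ℝ} (ha : |a| ≤ C) (hb : |b| ≤ C) (hc : |c| ≤ C) (hm : |m| ≤ C)
    (hw : |w| ≤ C) :
    |-(b - a ^ 2) / 2 - w| ≤ 2 * C + C ^ 2 ∧ |2 * (a + m)| ≤ 4 * C ∧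
      |-(3 / 2) * w * a - 3 / 4 * a ^ 3 + 5 / 4 * a * b - c / 2| ≤ C + 3 * C ^ 2 + C ^ 3 := by
  have hC : 0 ≤ C := (abs_nonneg a).trans ha
  have a2 : |a ^ 2| ≤ C ^ 2 := by rw [abs_pow]; gcongr
  have a3 : |a ^ 3| ≤ C ^ 3 := by rw [abs_pow]; gcongr
  have wa : |w * a| ≤ C ^ 2 := by rw [abs_mul, sq]; gcongr
  have ab : |a * b| ≤ C ^ 2 := by rw [abs_mul, sq]; gcongr
  have c2 : 0 ≤ C ^ 2 := by positivity
  have c3 : 0 ≤ C ^ 3 := by positivity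
  rw [abs_le] at ha hb hc hm hw a2 a3 wa ab
  refine ⟨abs_le.2 ⟨?_, ?_⟩, abs_le.2 ⟨?_, ?_⟩, abs_le.2 ⟨?_, ?_⟩⟩ <;> linarith

/-- Let `Q = Hq P` (`Lj.fl`, `Bk.flow_pos`, `Bk.flow_rat`, `Hq_zero`), `m, w = jt 1, jt 2`,
`a, b, c, d, e = uj 3, …, uj 7` of `Q s`.  Space derivatives: `w' = a w` (`jt_d`, `jt_eq_uj`),
`uj_d`.  Time derivatives (quotient rule with `Fl.t2`, …, `Fl.t5`), with `τ = b + 2 m a + 2 w`:
`w_s = s w τ`, `a_s = s (c + 2 m b + 6 w a - a τ)`, `b_s = s (d + 2 m c + 8 w b + 6 w a ^ 2 - b τ)`,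
`c_s = s (e + 2 m d + 10 w c + 20 w a b - c τ)`.  With
`E1 = -w a - a ^ 3 + 3 / 2 a b - c / 2`, `E2 = -w b + 3 a ^ 4 - 6 a ^ 2 b + 2 a c + 3 / 2 b ^ 2 - d / 2`,
`D1 = -3 / 2 w b + 9 / 4 a ^ 4 - 19 / 4 a ^ 2 b + 7 / 4 a c + 5 / 4 b ^ 2 - d / 2`,
`D2 = -3 / 2 w c - 9 a ^ 5 + 93 / 4 a ^ 3 b - 33 / 4 a ^ 2 c - 12 a b ^ 2 + 9 / 4 a d + 17 / 4 b c - e / 2`
(first and second space derivatives) one has, by `ring` (checked),
`E_s = s (E2 + 2 (a + m) E1 - 2 (2 E + w) E)` and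
`D_s = s (D2 + 2 (a + m) D1 - 2 (5 E + w) D + 3 a E ^ 2)`.
Apply `maxp` to `E` on `univ`, then (as `a + 2 m` vanishes at zero and has derivative `-2 E`, and
`m ≥ 0`, so `a ≤ 0` on the half line) to `-D` on `Ici 0`; `D = 0` at `x = 0` by `Lj.odd_zero`. -/
theorem Bk.flow {P : ℝ → ℝ} (h : Bk P) {s : ℝ} (hs : 0 ≤ s) : Bk (Hq P s) := by
  have hF : Fl (Hq P) := h.toLj.fl
  have hp := h.flow_pos
  have h0 : ∀ s x, jt 2 (Hq P s) x ≠ 0 := fun s x => (hp s x).ne'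
  obtain ⟨C1, h1⟩ := h.flow_rat
  obtain ⟨C2, h2⟩ := hF.bd 0
  obtain ⟨C3, h3⟩ := hF.bd 1
  obtain ⟨C, hC1, hC2, hC3⟩ : ∃ C, C1 ≤ C ∧ C2 ≤ C ∧ C3 ≤ C :=
    ⟨max C1 (max C2 C3), le_max_left _ _, le_max_of_le_right (le_max_left _ _),
      le_max_of_le_right (le_max_right _ _)⟩
  have hw : ∀ s x, |jt 2 (Hq P s) x| ≤ C := fun s x => (h3 s x).trans hC3
  have hb := fun s x => FlowB_bd ((h1 s x).1.trans hC1) ((h1 s x).2.1.trans hC1)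
    ((h1 s x).2.2.trans hC1) ((h2 s x).trans hC2) (hw s x)
  have hC : 0 ≤ C := (abs_nonneg _).trans (hw 0 0)
  have c2 : 0 ≤ C ^ 2 := by positivity
  have c3 : 0 ≤ C ^ 3 := by positivity
  have k2 := hF.cont 2
  have k3 := FlowB_cu hF h0 3
  have k4 := FlowB_cu hF h0 4
  have k5 := FlowB_cu hF h0 5
  have hE : ∀ s x, 0 ≤ s → 0 ≤ Ee (Hq P s) x := fun s x hs => by
    refine maxp (u := fun s => Ee (Hq P s)) (R := Set.univ) (C := 10 * C + 4 * C ^ 2)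
      (B := fun s x => 2 * (uj 3 (Hq P s) x + jt 1 (Hq P s) x))
      (c := fun s x => -2 * (2 * Ee (Hq P s) x + jt 2 (Hq P s) x)) isClosed_univ ?_
      (fun s x => FlowB_dE (hF.lj s).sm (h0 s x)) (fun s x => FlowB_dE1 (hF.lj s).sm (h0 s x))
      (fun s x => FlowB_tE hF (h0 s x)) (fun s x _ _ => ?_) (fun s x _ _ => le_rfl)
      (fun x _ => ?_) (fun s x _ _ hx => ?_) s x hs (Set.mem_univ x)
    · simp only [Ee]
      fun_prop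
    · obtain ⟨b1, b2, -⟩ := hb s x
      have b3 := hp s x
      have b4 : |Ee (Hq P s) x| ≤ 2 * C + C ^ 2 := b1
      refine ⟨b4.trans (by linarith), b2.trans (by linarith), ?_⟩
      have b5 := (abs_le.1 b4).1
      linarith
    · rw [Hq_zero]
      exact h.hE x
    · simp at hx
  have hD : ∀ x, 0 ≤ x → 0 ≤ -De (Hq P s) x := fun x hx => by
    refine maxp (u := fun s x => -De (Hq P s) x) (R := Set.Ici 0) (C := 4 * C + 3 * C ^ 2 + C ^ 3)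
      (B := fun s x => 2 * (uj 3 (Hq P s) x + jt 1 (Hq P s) x))
      (c := fun s x => -2 * (5 * Ee (Hq P s) x + jt 2 (Hq P s) x)) isClosed_Ici ?_
      (fun s x => (FlowB_dD (hF.lj s).sm (h0 s x)).fun_neg)
      (fun s x => (FlowB_dD1 (hF.lj s).sm (h0 s x)).fun_neg)
      (fun s x => (FlowB_tD hF (h0 s x)).fun_neg) (fun s x hs _ => ?_) (fun s x hs hx => ?_)
      (fun x hx => ?_) (fun s x _ hx hx' => ?_) s x hs hx
    · simp only [De]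
      fun_prop
    · obtain ⟨-, b2, b1⟩ := hb s x
      have b3 := hp s x
      have b4 : |De (Hq P s) x| ≤ C + 3 * C ^ 2 + C ^ 3 := b1
      have b5 := hE s x hs
      refine ⟨by rw [abs_neg]; linarith, b2.trans (by linarith), by linarith⟩
    · have b1 := FlowB_neg (hF.lj s) (hp s) (fun y => hE s y hs) hx
      have b2 : 0 ≤ s * (-uj 3 (Hq P s) x * Ee (Hq P s) x ^ 2) :=
        mul_nonneg hs (mul_nonneg (neg_nonneg.2 b1) (sq_nonneg _))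
      linarith
    · rw [Hq_zero]
      exact neg_nonneg.2 (h.hD x hx)
    · rw [interior_Ici, Set.mem_Ioi, not_lt] at hx'
      obtain rfl : x = 0 := le_antisymm hx' hx
      have z3 : jt 3 (Hq P s) 0 = 0 := (hF.lj s).odd_zero 1
      have z5 : jt 5 (Hq P s) 0 = 0 := (hF.lj s).odd_zero 2
      simp [De, uj, z3, z5]
  exact ⟨hF.lj s, hp s, ⟨C1, h1 s⟩, fun x => hE s x hs, fun x hx => neg_nonneg.1 (hD x hx)⟩

end

end Vale.Agent.P367K
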