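import Vale.Agent.P367K.Jet1

/-! The heat flow of the derivatives of `exp P`. -/

namespace Vale.Agent.P367K

open MeasureTheory ProbabilityTheory Real Filter Topology Vale.Agent.P146M Vale.Agent.P146
  Vale.Agent.P146L
open scoped ContDiff

noncomputable section

variable {P : ℝ → ℝ}

/-! Use `Lj.exp_bd`, `Lj.lip` for the domination
`|jt j (exp ∘ P) (x + s z)| ≤ C exp (P 0 + C (|x| + |s| |z|))`, `int_eabs`,
`hasDerivAt_integral_of_dominated_loc_of_deriv_le`, `continuousAt_of_dominated`, `ibp_one`. -/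

theorem Heat1_sm (h : Lj P) : ContDiff ℝ ∞ fun y => exp (P y) := h.sm.exp

theorem Heat1_dom (h : Lj P) (j : ℕ) (R : ℝ) : ∃ A K : ℝ, 0 ≤ A ∧ ∀ s x z, |s| ≤ R → |x| ≤ R →
    |jt j (fun y => exp (P y)) (x + s * z)| ≤ A * exp (K * |z|) := by
  obtain ⟨A, hA, h1⟩ := h.exp_bd j
  obtain ⟨C, hC, h2⟩ := h.lip
  refine ⟨A * exp (P 0 + C * R), C * R, by positivity, fun s x z hs hx => (h1 _).trans ?_⟩
  rw [mul_assoc A, ← exp_add]
  refine mul_le_mul_of_nonneg_left (exp_le_exp.2 ?_) hA
  have h3 := (abs_le.1 (h2 (x + s * z) 0)).2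
  have h4 : |x + s * z - 0| ≤ R + R * |z| := by
    rw [sub_zero]
    refine (abs_add_le _ _).trans ?_
    rw [abs_mul]
    exact add_le_add hx (mul_le_mul_of_nonneg_right hs (abs_nonneg z))
  have h5 := mul_le_mul_of_nonneg_left h4 hC
  linarith

theorem Heat1_dom' (h : Lj P) (j : ℕ) (R : ℝ) : ∃ A K : ℝ, 0 ≤ A ∧ ∀ s x z, |s| ≤ R → |x| ≤ R →
    |z * jt j (fun y => exp (P y)) (x + s * z)| ≤ A * exp (K * |z|) := by
  obtain ⟨A, K, hA, h1⟩ := Heat1_dom h j R
  refine ⟨A, K + 1, hA, fun s x z hs hx => ?_⟩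
  have h2 : |z| ≤ exp |z| := by linarith [add_one_le_exp |z|]
  rw [abs_mul, add_mul, one_mul, exp_add, ← mul_assoc, mul_comm |z|]
  exact mul_le_mul (h1 s x z hs hx) h2 (abs_nonneg z) (by positivity)

theorem Heat1_cont (h : Lj P) (j : ℕ) (s x : ℝ) :
    Continuous fun z => jt j (fun y => exp (P y)) (x + s * z) :=
  (jt_cont (Heat1_sm h) j).comp (by fun_prop)

theorem Heat1_int (h : Lj P) (j : ℕ) (s x : ℝ) :
    Integrable (fun z => z * jt j (fun y => exp (P y)) (x + s * z)) γ1 := by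
  obtain ⟨A, K, -, h1⟩ := Heat1_dom' h j (max |s| |x|)
  exact ((int_eabs K).const_mul A).mono'
    (continuous_id.mul (Heat1_cont h j s x)).aestronglyMeasurable
    (ae_of_all _ fun z => h1 s x z (le_max_left _ _) (le_max_right _ _))

theorem Heat1_ball {a b : ℝ} (R : ℝ) (hb : b ∈ Metric.ball a 1) : |b| ≤ max (|a| + 1) R := by
  have h1 : |b - a| < 1 := by simpa [Real.dist_eq] using hb
  have h2 := abs_sub_abs_le_abs_sub b a
  exact le_max_of_le_left (by linarith)

theorem Lj.int_Fq (h : Lj P) (j : ℕ) (s x : ℝ) :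
    Integrable (fun z => jt j (fun y => exp (P y)) (x + s * z)) γ1 := by
  obtain ⟨A, K, -, h1⟩ := Heat1_dom h j (max |s| |x|)
  exact ((int_eabs K).const_mul A).mono' (Heat1_cont h j s x).aestronglyMeasurable
    (ae_of_all _ fun z => h1 s x z (le_max_left _ _) (le_max_right _ _))

theorem Fq_zero (P : ℝ → ℝ) (s x : ℝ) : Fq P 0 s x = ∫ z, exp (P (x + s * z)) ∂γ1 := by
  simp only [Fq, jt, iteratedDeriv_zero]

theorem Lj.Fq_pos (h : Lj P) (s x : ℝ) : 0 < Fq P 0 s x := by
  have h1 := h.int_Fq 0 s x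
  simp only [jt, iteratedDeriv_zero] at h1
  rw [Fq_zero]
  exact integral_exp_pos h1

theorem Lj.Fq_bd (h : Lj P) (j : ℕ) : ∃ C, ∀ s x, |Fq P j s x| ≤ C * Fq P 0 s x := by
  obtain ⟨C, -, h1⟩ := h.exp_bd j
  refine ⟨C, fun s x => ?_⟩
  have h2 := h.int_Fq 0 s x
  simp only [jt, iteratedDeriv_zero] at h2
  rw [Fq_zero, ← integral_const_mul, Fq, ← Real.norm_eq_abs]
  exact norm_integral_le_of_norm_le (h2.const_mul C) (ae_of_all _ fun z => h1 _)

theorem Lj.Fq_cont (h : Lj P) (j : ℕ) : Continuous fun p : ℝ × ℝ => Fq P j p.1 p.2 := by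
  refine continuous_iff_continuousAt.2 fun p => ?_
  obtain ⟨A, K, -, h1⟩ := Heat1_dom h j (max (|p.1| + 1) (|p.2| + 1))
  refine continuousAt_of_dominated (bound := fun z => A * exp (K * |z|))
    (Eventually.of_forall fun q => (Heat1_cont h j q.1 q.2).aestronglyMeasurable) ?_
    ((int_eabs K).const_mul A) (ae_of_all _ fun z => ?_)
  · filter_upwards [Metric.ball_mem_nhds p one_pos] with q hq
    rw [← ball_prod_same] at hq
    refine ae_of_all _ fun z => h1 q.1 q.2 z (Heat1_ball _ hq.1) ?_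
    rw [max_comm]
    exact Heat1_ball _ hq.2
  · exact ((jt_cont (Heat1_sm h) j).comp (by fun_prop :
      Continuous fun q : ℝ × ℝ => q.2 + q.1 * z)).continuousAt

theorem Lj.Fq_dx (h : Lj P) (j : ℕ) (s x : ℝ) : HasDerivAt (Fq P j s) (Fq P (j + 1) s x) x := by
  obtain ⟨A, K, -, h1⟩ := Heat1_dom h (j + 1) (max (|x| + 1) |s|)
  exact (hasDerivAt_integral_of_dominated_loc_of_deriv_le (μ := γ1) (x₀ := x)
    (F := fun x z => jt j (fun y => exp (P y)) (x + s * z))
    (F' := fun x z => jt (j + 1) (fun y => exp (P y)) (x + s * z))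
    (bound := fun z => A * exp (K * |z|)) (Metric.ball_mem_nhds x one_pos)
    (Eventually.of_forall fun y => (Heat1_cont h j s y).aestronglyMeasurable) (h.int_Fq j s x)
    (Heat1_cont h (j + 1) s x).aestronglyMeasurable
    (ae_of_all _ fun z y hy => h1 s y z (le_max_right _ _) (Heat1_ball _ hy))
    ((int_eabs K).const_mul A)
    (ae_of_all _ fun z y _ => (jt_d (Heat1_sm h) j _).comp_add_const y (s * z))).2

/-- the derivative is `∫ z * e_{j+1} (x + s z)`, and Gaussian integration by parts -/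
theorem Lj.Fq_ds (h : Lj P) (j : ℕ) (s x : ℝ) :
    HasDerivAt (fun s => Fq P j s x) (s * Fq P (j + 2) s x) s := by
  obtain ⟨A, K, -, h1⟩ := Heat1_dom' h (j + 1) (max (|s| + 1) |x|)
  have hd : ∀ (k : ℕ) (t z : ℝ), HasDerivAt (fun t => jt k (fun y => exp (P y)) (x + t * z))
      (z * jt (k + 1) (fun y => exp (P y)) (x + t * z)) t := fun k t z => by
    have := (jt_d (Heat1_sm h) k (x + t * z)).comp t
      (((hasDerivAt_id t).mul_const z).const_add x)
    rw [one_mul, mul_comm] at this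
    exact this
  have hz : ∀ z : ℝ, HasDerivAt (fun z => jt (j + 1) (fun y => exp (P y)) (x + s * z))
      (s * jt (j + 2) (fun y => exp (P y)) (x + s * z)) z := fun z => by
    have := (jt_d (Heat1_sm h) (j + 1) (x + s * z)).comp z
      (((hasDerivAt_id z).const_mul s).const_add x)
    rw [mul_one, mul_comm] at this
    exact this
  have e := ibp_one hz (h.int_Fq (j + 1) s x) ((h.int_Fq (j + 2) s x).const_mul s)
    (Heat1_int h (j + 1) s x)
  rw [integral_const_mul] at e
  have key := (hasDerivAt_integral_of_dominated_loc_of_deriv_le (μ := γ1) (x₀ := s)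
    (F := fun t z => jt j (fun y => exp (P y)) (x + t * z))
    (F' := fun t z => z * jt (j + 1) (fun y => exp (P y)) (x + t * z))
    (bound := fun z => A * exp (K * |z|)) (Metric.ball_mem_nhds s one_pos)
    (Eventually.of_forall fun t => (Heat1_cont h j t x).aestronglyMeasurable) (h.int_Fq j s x)
    (Heat1_int h (j + 1) s x).aestronglyMeasurable
    (ae_of_all _ fun z t ht => h1 t x z (Heat1_ball _ ht) (le_max_right _ _))
    ((int_eabs K).const_mul A) (ae_of_all _ fun z t _ => hd j t z)).2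
  rw [e] at key
  exact key

/-- `integral_neg_eq_self` or `gaussianReal_map_neg` -/
theorem Lj.Fq_even (h : Lj P) (s x : ℝ) : Fq P 0 s (-x) = Fq P 0 s x := by
  rw [Fq_zero, Fq_zero]
  have hm : γ1.map (fun z : ℝ => -z) = γ1 := by
    rw [gaussianReal_map_neg, neg_zero]
  have hc : Continuous fun z => exp (P (x + s * z)) := (Heat1_sm h).continuous.comp (by fun_prop)
  conv_rhs => rw [← hm]
  rw [integral_map measurable_neg.aemeasurable hc.aestronglyMeasurable]
  refine integral_congr_ae (ae_of_all _ fun z => ?_)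
  show exp (P (-x + s * z)) = exp (P (x + s * -z))
  rw [← h.ev (x + s * -z)]
  congr 2
  ring

end

end Vale.Agent.P367K
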