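import Vale.Agent.P367K.Heat1

/-! The logarithm of the heat flow. -/

namespace Vale.Agent.P367K

open MeasureTheory ProbabilityTheory Real Filter Topology Vale.Agent.P146M Vale.Agent.P146
  Vale.Agent.P146L
open scoped ContDiff

noncomputable section

variable {P : ℝ → ℝ}

/-- an algebra generated by functions whose derivatives lie in the algebra is closed under the
derivative (`Algebra.adjoin_induction`) -/
theorem adj_deriv {S : Set (ℝ × ℝ → ℝ)} (h : ∀ a ∈ S, ∃ b ∈ Algebra.adjoin ℝ S,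
    ∀ s x, HasDerivAt (fun x => a (s, x)) (b (s, x)) x) : ∀ a ∈ Algebra.adjoin ℝ S,
    ∃ b ∈ Algebra.adjoin ℝ S, ∀ s x, HasDerivAt (fun x => a (s, x)) (b (s, x)) x := by
  intro a ha
  induction ha using Algebra.adjoin_induction with
  | mem a ha => exact h a ha
  | algebraMap r => exact ⟨0, zero_mem _, fun s x => hasDerivAt_const x r⟩
  | add a a' _ _ h1 h2 =>
    obtain ⟨b, hb, h1⟩ := h1
    obtain ⟨b', hb', h2⟩ := h2
    exact ⟨b + b', add_mem hb hb', fun s x => (h1 s x).add (h2 s x)⟩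
  | mul a a' ha ha' h1 h2 =>
    obtain ⟨b, hb, h1⟩ := h1
    obtain ⟨b', hb', h2⟩ := h2
    exact ⟨b * a' + a * b', add_mem (mul_mem hb ha') (mul_mem ha hb'),
      fun s x => (h1 s x).mul (h2 s x)⟩

theorem adj_bdd {S : Set (ℝ × ℝ → ℝ)} (h : ∀ a ∈ S, Continuous a ∧ ∃ C, ∀ p, |a p| ≤ C) :
    ∀ a ∈ Algebra.adjoin ℝ S, Continuous a ∧ ∃ C, ∀ p, |a p| ≤ C := by
  intro a ha
  induction ha using Algebra.adjoin_induction with
  | mem a ha => exact h a ha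
  | algebraMap r => exact ⟨continuous_const, |r|, fun p => le_rfl⟩
  | add a a' _ _ h1 h2 =>
    obtain ⟨c1, C, h1⟩ := h1
    obtain ⟨c2, C', h2⟩ := h2
    exact ⟨c1.add c2, C + C', fun p => (abs_add_le _ _).trans (add_le_add (h1 p) (h2 p))⟩
  | mul a a' ha ha' h1 h2 =>
    obtain ⟨c1, C, h1⟩ := h1
    obtain ⟨c2, C', h2⟩ := h2
    refine ⟨c1.mul c2, C * C', fun p => ?_⟩
    rw [Pi.mul_apply, abs_mul]
    exact mul_le_mul (h1 p) (h2 p) (abs_nonneg _) ((abs_nonneg _).trans (h1 p))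

theorem Lj.qq_bd (h : Lj P) (j : ℕ) : ∃ C, 0 ≤ C ∧ ∀ s x, |qq P j s x| ≤ C := by
  obtain ⟨C, hC⟩ := h.Fq_bd j
  have h1 : ∀ s x, |qq P j s x| ≤ C := fun s x => by
    rw [qq, abs_div, abs_of_pos (h.Fq_pos s x), div_le_iff₀ (h.Fq_pos s x)]
    exact hC s x
  exact ⟨C, (abs_nonneg _).trans (h1 0 0), h1⟩

theorem Lj.qq_dx (h : Lj P) (j : ℕ) (s x : ℝ) :
    HasDerivAt (qq P j s) (qq P (j + 1) s x - qq P 1 s x * qq P j s x) x := by
  have h0 := (h.Fq_pos s x).ne'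
  refine HasDerivAt.congr_deriv ((h.Fq_dx j s x).div (h.Fq_dx 0 s x) h0) ?_
  simp only [qq, zero_add]
  field_simp

theorem Heat2_Hq (P : ℝ → ℝ) (s x : ℝ) : Hq P s x = log (Fq P 0 s x) := by
  rw [Fq_zero, Hq]

theorem Heat2_d0 (h : Lj P) (s x : ℝ) : HasDerivAt (Hq P s) (qq P 1 s x) x := by
  have h1 : Hq P s = fun x => log (Fq P 0 s x) := funext fun x => Heat2_Hq P s x
  rw [h1]
  exact (h.Fq_dx 0 s x).log (h.Fq_pos s x).ne'

/-- cumulants in terms of moments -/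
theorem Lj.jt_Hq (h : Lj P) (s x : ℝ) :
    jt 1 (Hq P s) x = qq P 1 s x ∧
    jt 2 (Hq P s) x = qq P 2 s x - qq P 1 s x ^ 2 ∧
    jt 3 (Hq P s) x = qq P 3 s x - 3 * qq P 1 s x * qq P 2 s x + 2 * qq P 1 s x ^ 3 ∧
    jt 4 (Hq P s) x = qq P 4 s x - 4 * qq P 1 s x * qq P 3 s x - 3 * qq P 2 s x ^ 2 +
      12 * qq P 1 s x ^ 2 * qq P 2 s x - 6 * qq P 1 s x ^ 4 ∧
    jt 5 (Hq P s) x = qq P 5 s x - 5 * qq P 1 s x * qq P 4 s x - 10 * qq P 2 s x * qq P 3 s x +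
      20 * qq P 1 s x ^ 2 * qq P 3 s x + 30 * qq P 1 s x * qq P 2 s x ^ 2 -
      60 * qq P 1 s x ^ 3 * qq P 2 s x + 24 * qq P 1 s x ^ 5 := by
  have d1 := h.qq_dx 1 s
  have d2 := h.qq_dx 2 s
  have d3 := h.qq_dx 3 s
  have d4 := h.qq_dx 4 s
  have e1 : ∀ x, jt 1 (Hq P s) x = qq P 1 s x :=
    Jet1_step (n := 0) (fun _ => rfl) (Heat2_d0 h s)
  have e2 : ∀ x, jt 2 (Hq P s) x = qq P 2 s x - qq P 1 s x ^ 2 :=
    Jet1_step e1 fun x => (d1 x).congr_deriv (by ring)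
  have e3 : ∀ x, jt 3 (Hq P s) x =
      qq P 3 s x - 3 * qq P 1 s x * qq P 2 s x + 2 * qq P 1 s x ^ 3 :=
    Jet1_step e2 fun x => ((d2 x).sub ((d1 x).pow 2)).congr_deriv (by simp; ring)
  have e4 : ∀ x, jt 4 (Hq P s) x = qq P 4 s x - 4 * qq P 1 s x * qq P 3 s x - 3 * qq P 2 s x ^ 2 +
      12 * qq P 1 s x ^ 2 * qq P 2 s x - 6 * qq P 1 s x ^ 4 :=
    Jet1_step e3 fun x => (((d3 x).sub (((d1 x).const_mul 3).mul (d2 x))).add
      (((d1 x).pow 3).const_mul 2)).congr_deriv (by simp; ring)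
  refine ⟨e1 x, e2 x, e3 x, e4 x, ?_⟩
  have e5 := Jet1_step e4 fun x => (((((d4 x).sub (((d1 x).const_mul 4).mul (d3 x))).sub
    (((d2 x).pow 2).const_mul 3)).add ((((d1 x).pow 2).const_mul 12).mul (d2 x))).sub
      (((d1 x).pow 4).const_mul 6))
  rw [e5 x]
  simp
  ring

/-- By induction `fun p => jt (n + 1) (Hq P p.1) p.2` lies in the algebra generated by the `qq`;
choose the derivatives recursively or use `jt_of_chain` with `f n = jt n (Hq P s)` after showing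
differentiability. -/
theorem Lj.fl (h : Lj P) : Fl (Hq P) := by
  obtain ⟨S, hS⟩ : ∃ S : Set (ℝ × ℝ → ℝ), S = Set.range fun j (p : ℝ × ℝ) => qq P j p.1 p.2 :=
    ⟨_, rfl⟩
  have hm : ∀ j, (fun p : ℝ × ℝ => qq P j p.1 p.2) ∈ Algebra.adjoin ℝ S := fun j =>
    Algebra.subset_adjoin (by rw [hS]; exact ⟨j, rfl⟩)
  have hd := adj_deriv (S := S) fun a ha => by
    rw [hS] at ha
    obtain ⟨j, rfl⟩ := ha
    exact ⟨_, sub_mem (hm (j + 1)) (mul_mem (hm 1) (hm j)), fun s x => h.qq_dx j s x⟩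
  have hb := adj_bdd (S := S) fun a ha => by
    rw [hS] at ha
    obtain ⟨j, rfl⟩ := ha
    obtain ⟨C, -, hC⟩ := h.qq_bd j
    exact ⟨(h.Fq_cont j).div (h.Fq_cont 0) fun p => (h.Fq_pos _ _).ne', C, fun p => hC _ _⟩
  choose D hD1 hD2 using hd
  obtain ⟨c, hc0, hc⟩ : ∃ c : ℕ → Algebra.adjoin ℝ S, c 0 = ⟨_, hm 1⟩ ∧
      ∀ n, c (n + 1) = ⟨D _ (c n).2, hD1 _ _⟩ :=
    ⟨fun n => Nat.rec ⟨_, hm 1⟩ (fun _ a => ⟨D _ a.2, hD1 _ _⟩) n, rfl, fun _ => rfl⟩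
  have hch : ∀ s, ContDiff ℝ ∞ (Hq P s) ∧ ∀ n, jt (n + 1) (Hq P s) = fun x => (c n).1 (s, x) := by
    intro s
    have h1 := jt_of_chain (f := fun n => Nat.rec (Hq P s) (fun n _ x => (c n).1 (s, x)) n) (by
      intro n x
      cases n with
      | zero =>
        change HasDerivAt (Hq P s) ((c 0).1 (s, x)) x
        rw [hc0]
        exact Heat2_d0 h s x
      | succ n =>
        change HasDerivAt (fun x => (c n).1 (s, x)) ((c (n + 1)).1 (s, x)) x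
        rw [hc n]
        exact hD2 _ _ s x)
    exact ⟨h1.1, fun n => h1.2 (n + 1)⟩
  have hbd : ∀ n, ∃ C, ∀ s x, |jt (n + 1) (Hq P s) x| ≤ C := fun n => by
    obtain ⟨C, hC⟩ := (hb _ (c n).2).2
    exact ⟨C, fun s x => by rw [(hch s).2 n]; exact hC _⟩
  refine ⟨fun s => ⟨(hch s).1, fun n => (hbd n).imp fun C hC => hC s, fun x => ?_⟩, fun n => ?_,
    hbd, fun s x => ?_⟩
  · rw [Heat2_Hq, Heat2_Hq, h.Fq_even]
  · cases n with
    | zero =>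
      simp only [jt, iteratedDeriv_zero, Heat2_Hq]
      exact (h.Fq_cont 0).log fun p => (h.Fq_pos _ _).ne'
    | succ n =>
      simp only [(hch _).2 n]
      exact (hb _ (c n).2).1
  · simp only [Heat2_Hq]
    refine HasDerivAt.congr_deriv ((h.Fq_ds 0 s x).log (h.Fq_pos s x).ne') ?_
    rw [(h.jt_Hq s x).1, (h.jt_Hq s x).2.1, sub_add_cancel, qq, zero_add, mul_div_assoc]

theorem Hq_zero (P : ℝ → ℝ) : Hq P 0 = P := by
  funext x
  simp [Hq]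

theorem Hq_stp {ζ : ℝ} (hζ : 0 < ζ) (v : ℝ) (Φ : ℝ → ℝ) :
    Hq (fun y => ζ * Φ y) √v = fun x => ζ * stp ζ v Φ x := by
  funext x
  rw [stp, ← mul_assoc, mul_inv_cancel₀ hζ.ne', one_mul, Hq]

end

end Vale.Agent.P367K
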