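import Vale.Agent.P367K.Defs

/-! Calculus of smooth functions with bounded derivatives. -/

namespace Vale.Agent.P367K

open MeasureTheory ProbabilityTheory Real Filter Topology Vale.Agent.P146M Vale.Agent.P146
  Vale.Agent.P146L
open scoped ContDiff

noncomputable section

variable {P U : ℝ → ℝ}

/-- `iteratedDeriv_succ`, `ContDiff.differentiable_iteratedDeriv` -/
theorem jt_d (h : ContDiff ℝ ∞ P) (n : ℕ) (x : ℝ) : HasDerivAt (jt n P) (jt (n + 1) P x) x := by
  rw [jt, jt, iteratedDeriv_succ]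
  exact (h.differentiable_iteratedDeriv n (by exact_mod_cast ENat.coe_lt_top n) x).hasDerivAt

theorem Jet1_d0 (h : ContDiff ℝ ∞ P) (x : ℝ) : HasDerivAt P (jt 1 P x) x := jt_d h 0 x

theorem Jet1_step {f g g' : ℝ → ℝ} {n : ℕ} (h : ∀ x, jt n f x = g x)
    (hd : ∀ x, HasDerivAt g (g' x) x) (x : ℝ) : jt (n + 1) f x = g' x := by
  rw [jt, iteratedDeriv_succ, show iteratedDeriv n f = g from funext h, (hd x).deriv]

theorem jt_cont (h : ContDiff ℝ ∞ P) (n : ℕ) : Continuous (jt n P) := by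
  exact continuous_iff_continuousAt.2 fun x => (jt_d h n x).continuousAt

theorem jt_one (P : ℝ → ℝ) : jt 1 P = D1 P := by
  exact iteratedDeriv_one

theorem jt_two (P : ℝ → ℝ) : jt 2 P = D2 P := by
  rw [jt, iteratedDeriv_succ, iteratedDeriv_one]

/-- a sequence of functions linked by derivatives is the sequence of derivatives -/
theorem jt_of_chain {f : ℕ → ℝ → ℝ} (h : ∀ n x, HasDerivAt (f n) (f (n + 1) x) x) :
    ContDiff ℝ ∞ (f 0) ∧ ∀ n, jt n (f 0) = f n := by
  have e : ∀ n, jt n (f 0) = f n := fun n => by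
    induction n with
    | zero => exact iteratedDeriv_zero
    | succ n ih =>
      rw [jt, iteratedDeriv_succ]
      exact funext fun x => (congrArg (deriv · x) ih).trans (h n x).deriv
  refine ⟨contDiff_of_differentiable_iteratedDeriv (n := ⊤) fun m _ => ?_, e⟩
  rw [show iteratedDeriv m (f 0) = f m from e m]
  exact fun x => (h m x).differentiableAt

/-- `iteratedDeriv_comp_neg` -/
theorem Lj.parity (h : Lj P) (n : ℕ) (x : ℝ) : jt n P (-x) = (-1) ^ n * jt n P x := by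
  have e := iteratedDeriv_comp_neg n P (-x)
  rw [show (fun x => P (-x)) = P from funext h.ev, neg_neg] at e
  exact e

theorem Lj.odd_zero (h : Lj P) (n : ℕ) : jt (2 * n + 1) P 0 = 0 := by
  have e := h.parity (2 * n + 1) 0
  rw [neg_zero, pow_succ, pow_mul] at e
  simp only [even_two, Even.neg_pow, one_pow] at e
  linarith

theorem jt_const_mul (h : ContDiff ℝ ∞ P) (c : ℝ) (n : ℕ) (x : ℝ) :
    jt n (fun y => c * P y) x = c * jt n P x := by
  exact iteratedDeriv_const_mul_field c P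

theorem jt_add (h : ContDiff ℝ ∞ P) (h' : ContDiff ℝ ∞ U) (n : ℕ) (x : ℝ) :
    jt n (fun y => P y + U y) x = jt n P x + jt n U x := by
  exact iteratedDeriv_fun_add (h.of_le (by exact_mod_cast le_top)).contDiffAt
    (h'.of_le (by exact_mod_cast le_top)).contDiffAt

theorem jt_comp_mul (h : ContDiff ℝ ∞ P) (c : ℝ) (n : ℕ) (x : ℝ) :
    jt n (fun y => P (c * y)) x = c ^ n * jt n P (c * x) := by
  exact congrFun (iteratedDeriv_comp_const_mul (h.of_le (by exact_mod_cast le_top)) c) x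

theorem jt_const (c : ℝ) (n : ℕ) (x : ℝ) : jt (n + 1) (fun _ => c) x = 0 := by
  rw [jt, iteratedDeriv_const, if_neg n.succ_ne_zero]

theorem Lj.const (c : ℝ) : Lj fun _ => c := by
  exact ⟨contDiff_const, fun n => ⟨0, fun x => by rw [jt_const, abs_zero]⟩, fun _ => rfl⟩

theorem Lj.const_mul (h : Lj P) (c : ℝ) : Lj fun y => c * P y := by
  refine ⟨contDiff_const.mul h.sm, fun n => ?_, fun x => by rw [h.ev]⟩
  obtain ⟨C, hC⟩ := h.bd n
  refine ⟨|c| * C, fun x => ?_⟩
  rw [jt_const_mul h.sm, abs_mul]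
  exact mul_le_mul_of_nonneg_left (hC x) (abs_nonneg c)

theorem Lj.add (h : Lj P) (h' : Lj U) : Lj fun y => P y + U y := by
  refine ⟨h.sm.add h'.sm, fun n => ?_, fun x => by rw [h.ev, h'.ev]⟩
  obtain ⟨C, hC⟩ := h.bd n
  obtain ⟨C', hC'⟩ := h'.bd n
  refine ⟨C + C', fun x => ?_⟩
  rw [jt_add h.sm h'.sm]
  exact (abs_add_le _ _).trans (add_le_add (hC x) (hC' x))

theorem Lj.comp_mul (h : Lj P) (c : ℝ) : Lj fun y => P (c * y) := by
  refine ⟨h.sm.comp (contDiff_const.mul contDiff_id), fun n => ?_, fun x => by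
    rw [mul_neg, h.ev]⟩
  obtain ⟨C, hC⟩ := h.bd n
  refine ⟨|c ^ (n + 1)| * C, fun x => ?_⟩
  rw [jt_comp_mul h.sm, abs_mul]
  exact mul_le_mul_of_nonneg_left (hC _) (abs_nonneg _)

/-- mean value inequality -/
theorem Lj.lip (h : Lj P) : ∃ C, 0 ≤ C ∧ ∀ x y, |P x - P y| ≤ C * |x - y| := by
  obtain ⟨C, hC⟩ := h.bd 0
  refine ⟨C, (abs_nonneg _).trans (hC 0), fun x y => ?_⟩
  exact convex_univ.norm_image_sub_le_of_norm_hasDerivWithin_le (f := P) (f' := jt 1 P)
    (fun z _ => (Jet1_d0 h.sm z).hasDerivWithinAt) (fun z _ => hC z) (Set.mem_univ y)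
    (Set.mem_univ x)

theorem Lj.gr_exp (h : Lj P) : Gr fun y => exp (P y) := by
  obtain ⟨C, h0, hC⟩ := h.lip
  refine ⟨(continuous_exp.comp h.sm.continuous).measurable, C + exp (P 0), fun y => ?_⟩
  have h1 := hC y 0
  rw [sub_zero] at h1
  have h2 := exp_pos (P 0)
  have h3 : exp (P y) ≤ exp (P 0) * exp ((C + exp (P 0)) * |y|) := by
    rw [← exp_add]
    refine exp_le_exp.2 ?_
    nlinarith [le_abs_self (P y - P 0), mul_nonneg h2.le (abs_nonneg y)]
  rw [abs_of_pos (exp_pos _)]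
  exact h3.trans (mul_le_mul_of_nonneg_right (by linarith) (exp_pos _).le)

theorem Lj.gr_jt (h : Lj P) (n : ℕ) : Gr (jt (n + 1) P) := by
  obtain ⟨C, hC⟩ := h.bd n
  exact Gr.bdd (jt_cont h.sm _).measurable hC

/-- `norm_iteratedFDeriv_comp_le` with `g = exp` (or induction: the `j`-th derivative is `exp P`
times an element of the algebra generated by the `jt (n + 1) P`, see `adj_deriv`). -/
theorem Lj.exp_bd (h : Lj P) (j : ℕ) :
    ∃ C, 0 ≤ C ∧ ∀ x, |jt j (fun y => exp (P y)) x| ≤ C * exp (P x) := by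
  choose B hB using h.bd
  induction j using Nat.strong_induction_on with
  | _ j ih =>
    rcases j with _ | j
    · exact ⟨1, zero_le_one, fun x => by
        rw [jt, iteratedDeriv_zero, abs_of_pos (exp_pos _), one_mul]⟩
    · choose! C hC using ih
      have hB0 : ∀ n, 0 ≤ B n := fun n => (abs_nonneg _).trans (hB n 0)
      refine ⟨∑ i ∈ Finset.range (j + 1), j.choose i * C i * B (j - i),
        Finset.sum_nonneg fun i hi => mul_nonneg (mul_nonneg (Nat.cast_nonneg _)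
          (hC i (Finset.mem_range.1 hi)).1) (hB0 _), fun x => ?_⟩
      have e : deriv (fun y => exp (P y)) = fun y => exp (P y) * deriv P y :=
        funext fun y => (h.sm.differentiable (by simp) y).hasDerivAt.exp.deriv
      rw [jt, iteratedDeriv_succ', e, iteratedDeriv_fun_mul
        (h.sm.exp.of_le (by exact_mod_cast le_top)).contDiffAt
        ((contDiff_infty_iff_deriv.1 h.sm).2.of_le (by exact_mod_cast le_top)).contDiffAt,
        Finset.sum_mul]
      refine (Finset.abs_sum_le_sum_abs _ _).trans (Finset.sum_le_sum fun i hi => ?_)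
      rw [← iteratedDeriv_succ', abs_mul, abs_mul, Nat.abs_cast, mul_right_comm _ (B _),
        mul_assoc _ (C i)]
      obtain ⟨h1, h2⟩ := hC i (Finset.mem_range.1 hi)
      exact mul_le_mul (mul_le_mul_of_nonneg_left (h2 x) (Nat.cast_nonneg _)) (hB _ x)
        (abs_nonneg _) (by positivity)

/-- the first derivatives of `exp P` (differentiate with `jt_d`, `iteratedDeriv_succ`) -/
theorem jt_exp (h : ContDiff ℝ ∞ P) (x : ℝ) :
    jt 1 (fun y => exp (P y)) x = exp (P x) * jt 1 P x ∧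
    jt 2 (fun y => exp (P y)) x = exp (P x) * (jt 2 P x + jt 1 P x ^ 2) ∧
    jt 3 (fun y => exp (P y)) x =
      exp (P x) * (jt 3 P x + 3 * jt 1 P x * jt 2 P x + jt 1 P x ^ 3) ∧
    jt 4 (fun y => exp (P y)) x = exp (P x) * (jt 4 P x + 4 * jt 1 P x * jt 3 P x +
      3 * jt 2 P x ^ 2 + 6 * jt 1 P x ^ 2 * jt 2 P x + jt 1 P x ^ 4) ∧
    jt 5 (fun y => exp (P y)) x = exp (P x) * (jt 5 P x + 5 * jt 1 P x * jt 4 P x +
      10 * jt 2 P x * jt 3 P x + 10 * jt 1 P x ^ 2 * jt 3 P x + 15 * jt 1 P x * jt 2 P x ^ 2 +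
      10 * jt 1 P x ^ 3 * jt 2 P x + jt 1 P x ^ 5) := by
  have d := jt_d h
  have e0 : ∀ x, HasDerivAt (fun y => exp (P y)) (exp (P x) * jt 1 P x) x := fun x =>
    (Jet1_d0 h x).exp
  have e1 : ∀ x, jt 1 (fun y => exp (P y)) x = exp (P x) * jt 1 P x :=
    Jet1_step (n := 0) (fun _ => rfl) e0
  have e2 : ∀ x, jt 2 (fun y => exp (P y)) x = exp (P x) * (jt 2 P x + jt 1 P x ^ 2) :=
    Jet1_step e1 fun x => ((e0 x).fun_mul (d 1 x)).congr_deriv (by ring)
  have e3 : ∀ x, jt 3 (fun y => exp (P y)) x =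
      exp (P x) * (jt 3 P x + 3 * jt 1 P x * jt 2 P x + jt 1 P x ^ 3) :=
    Jet1_step e2 fun x =>
      ((e0 x).fun_mul ((d 2 x).fun_add ((d 1 x).fun_pow 2))).congr_deriv (by push_cast; ring)
  have e4 : ∀ x, jt 4 (fun y => exp (P y)) x = exp (P x) * (jt 4 P x + 4 * jt 1 P x * jt 3 P x +
      3 * jt 2 P x ^ 2 + 6 * jt 1 P x ^ 2 * jt 2 P x + jt 1 P x ^ 4) :=
    Jet1_step e3 fun x =>
      ((e0 x).fun_mul (((d 3 x).fun_add (((d 1 x).const_mul 3).fun_mul (d 2 x))).fun_add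
        ((d 1 x).fun_pow 3))).congr_deriv (by push_cast; ring)
  refine ⟨e1 x, e2 x, e3 x, e4 x, (Jet1_step e4 (fun x =>
    ((e0 x).fun_mul (((((d 4 x).fun_add (((d 1 x).const_mul 4).fun_mul (d 3 x))).fun_add
      (((d 2 x).fun_pow 2).const_mul 3)).fun_add
      ((((d 1 x).fun_pow 2).const_mul 6).fun_mul (d 2 x))).fun_add
        ((d 1 x).fun_pow 4)))) x).trans ?_⟩
  push_cast
  ring

/-- quotient rule -/
theorem uj_d (h : ContDiff ℝ ∞ P) {x : ℝ} (h0 : jt 2 P x ≠ 0) (n : ℕ) :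
    HasDerivAt (uj n P) (uj (n + 1) P x - uj 3 P x * uj n P x) x := by
  refine ((jt_d h n x).fun_div (jt_d h 2 x) h0).congr_deriv ?_
  simp only [uj]
  field_simp

theorem jt_eq_uj {x : ℝ} (h0 : jt 2 P x ≠ 0) (n : ℕ) : jt n P x = uj n P x * jt 2 P x := by
  rw [uj, div_mul_cancel₀ _ h0]

end

end Vale.Agent.P367K
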