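import Vale.Agent.P367K.Clair
import Vale.Agent.P367K.Heat2

/-! The maximum principle and the forward class. -/

namespace Vale.Agent.P367K

open MeasureTheory ProbabilityTheory Real Filter Topology Vale.Agent.P146M Vale.Agent.P146
  Vale.Agent.P146L
open scoped ContDiff

noncomputable section

theorem MaxP_second {f f1 : ℝ → ℝ} {x f2 : ℝ} (h1 : ∀ y, HasDerivAt f (f1 y) y)
    (h2 : HasDerivAt f1 f2 x) (hm : IsLocalMin f x) : f1 x = 0 ∧ 0 ≤ f2 := by
  have e1 : deriv f = f1 := funext fun y => (h1 y).deriv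
  have h0 : f1 x = 0 := hm.hasDerivAt_eq_zero (h1 x)
  refine ⟨h0, not_lt.1 fun hneg => ?_⟩
  have hM : IsLocalMax f x := by
    refine isLocalMax_of_deriv_deriv_neg ?_ ?_ (h1 x).continuousAt
    · rw [e1, h2.deriv]; exact hneg
    · rw [e1]; exact h0
  have hc : f =ᶠ[𝓝 x] fun _ => f x := by
    filter_upwards [hm, hM] with y a b using le_antisymm b a
  have hd : f1 =ᶠ[𝓝 x] fun _ => 0 := by
    have := hc.deriv
    rw [e1] at this
    simpa using this
  have := (h2.congr_of_eventuallyEq hd.symm).unique (hasDerivAt_const x (0 : ℝ))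
  exact hneg.ne this

theorem MaxP_left {g : ℝ → ℝ} {s g1 : ℝ} (h : HasDerivAt g g1 s) (hs : 0 < s)
    (hm : ∀ t, 0 ≤ t → t ≤ s → g s ≤ g t) : g1 ≤ 0 := by
  have h1 := (hasDerivAt_iff_tendsto_slope_left_right.1 h).1
  refine le_of_tendsto h1 ?_
  filter_upwards [Ioo_mem_nhdsLT hs] with t ht
  rw [slope_def_field]
  exact div_nonpos_of_nonneg_of_nonpos (sub_nonneg.2 (hm t ht.1.le ht.2.le)) (sub_nonpos.2 ht.2.le)

/-- Maximum principle.  Fix `S`, `ε > 0`, `K > S C + S (2 + 2 C)` and let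
`y s x = exp (-K s) u s x + ε (1 + x ^ 2)`.  If `y` is negative somewhere on `[0, S] × R`, it has a
negative minimum over the compact set `[0, S] × (R ∩ [-X, X])` (`y > 0` for `|x| ≥ X`) at a point
`(s, x)` with `s > 0` and `x ∈ interior R`; there `y_s ≤ 0`, `y_x = 0`, `y_xx ≥ 0`, which
contradicts the inequality. -/
theorem maxp {u ux uxx us B c : ℝ → ℝ → ℝ} {R : Set ℝ} (hR : IsClosed R) {C : ℝ}
    (cont : Continuous fun p : ℝ × ℝ => u p.1 p.2) (hx : ∀ s x, HasDerivAt (u s) (ux s x) x)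
    (hxx : ∀ s x, HasDerivAt (ux s) (uxx s x) x) (hs : ∀ s x, HasDerivAt (fun s => u s x) (us s x) s)
    (hb : ∀ s x, 0 ≤ s → x ∈ R → |u s x| ≤ C ∧ |B s x| ≤ C ∧ c s x ≤ C)
    (pde : ∀ s x, 0 ≤ s → x ∈ R → s * (uxx s x + B s x * ux s x + c s x * u s x) ≤ us s x)
    (init : ∀ x ∈ R, 0 ≤ u 0 x) (bdry : ∀ s x, 0 ≤ s → x ∈ R → x ∉ interior R → 0 ≤ u s x)
    (s x : ℝ) (hs0 : 0 ≤ s) (hxR : x ∈ R) : 0 ≤ u s x := by
  have hC : 0 ≤ C := (abs_nonneg _).trans (hb s x hs0 hxR).1
  set K : ℝ := s * (2 + 2 * C) + 1 with hK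
  have hK0 : 0 ≤ K := by positivity
  have key : ∀ ε : ℝ, 0 < ε → 0 ≤ exp (-K * s) * u s x + ε * (1 + x ^ 2) := by
    intro ε hε
    by_contra hneg
    push Not at hneg
    set y : ℝ × ℝ → ℝ := fun p => exp (-K * p.1) * u p.1 p.2 + ε * (1 + p.2 ^ 2) with hy
    have yc : Continuous y := by
      refine Continuous.add (Continuous.mul (by fun_prop) cont) (by fun_prop)
    set X : ℝ := C / ε + |x| + 1 with hX
    have hcomp : IsCompact ((Set.Icc 0 s) ×ˢ (R ∩ Set.Icc (-X) X)) :=
      isCompact_Icc.prod (isCompact_Icc.inter_left hR)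
    have hCe : 0 ≤ C / ε := by positivity
    have hmem : (s, x) ∈ (Set.Icc 0 s) ×ˢ (R ∩ Set.Icc (-X) X) := by
      refine ⟨⟨hs0, le_rfl⟩, hxR, ?_, ?_⟩
      · have := neg_abs_le x
        simp only; linarith
      · have := le_abs_self x
        simp only; linarith
    obtain ⟨⟨s0, x0⟩, ⟨⟨a0, a1⟩, hx0, -⟩, hmin⟩ := hcomp.exists_isMinOn ⟨_, hmem⟩ yc.continuousOn
    simp only at a0 a1 hx0
    have hy0 : y (s0, x0) < 0 := lt_of_le_of_lt (hmin hmem) hneg
    have hall : ∀ t z, 0 ≤ t → t ≤ s → z ∈ R → y (s0, x0) ≤ y (t, z) := by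
      intro t z t0 t1 hz
      by_cases hzX : |z| ≤ X
      · exact hmin ⟨⟨t0, t1⟩, hz, abs_le.1 hzX⟩
      · push Not at hzX
        refine hy0.le.trans ?_
        have e0 : 0 < exp (-K * t) := exp_pos _
        have e1 : exp (-K * t) ≤ 1 := exp_le_one_iff.2 (by nlinarith)
        have u1 := (abs_le.1 (hb t z t0 hz).1).1
        have z1 : C / ε ≤ z ^ 2 := by
          rw [← sq_abs]
          have := abs_nonneg x
          nlinarith
        have z2 : C ≤ ε * z ^ 2 := by
          rw [div_le_iff₀ hε] at z1; linarith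
        have : -C ≤ exp (-K * t) * u t z := by nlinarith
        simp only [hy]; nlinarith
    have e0 : 0 < exp (-K * s0) := exp_pos _
    have hu : exp (-K * s0) * u s0 x0 < -(ε * (1 + x0 ^ 2)) := by
      simp only [hy] at hy0; linarith
    have hq : 0 < ε * (1 + x0 ^ 2) := by positivity
    have hu0 : u s0 x0 < 0 := by
      by_contra h
      push Not at h
      have := mul_nonneg e0.le h
      linarith
    have hs0' : 0 < s0 := by
      refine lt_of_le_of_ne a0 fun h => ?_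
      have := init x0 hx0
      rw [h] at this
      linarith
    have hint : x0 ∈ interior R := by
      by_contra h
      have := bdry s0 x0 a0 hx0 h
      linarith
    have d1 : ∀ z, HasDerivAt (fun z => y (s0, z)) (exp (-K * s0) * ux s0 z + ε * (2 * z)) z := by
      intro z
      have a : HasDerivAt (fun z : ℝ => 1 + z ^ 2) (2 * z) z := by
        simpa using (hasDerivAt_pow 2 z).const_add 1
      exact ((hx s0 z).const_mul (exp (-K * s0))).fun_add (a.const_mul ε)
    have d2 : HasDerivAt (fun z => exp (-K * s0) * ux s0 z + ε * (2 * z))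
        (exp (-K * s0) * uxx s0 x0 + ε * 2) x0 := by
      refine ((hxx s0 x0).const_mul _).add (HasDerivAt.const_mul ε ?_)
      simpa using (hasDerivAt_id x0).const_mul 2
    have hl : IsLocalMin (fun z => y (s0, z)) x0 := by
      filter_upwards [mem_interior_iff_mem_nhds.1 hint] with z hz using hall s0 z a0 a1 hz
    obtain ⟨f1, f2⟩ := MaxP_second d1 d2 hl
    have d3 : HasDerivAt (fun t => y (t, x0))
        (exp (-K * s0) * (-K) * u s0 x0 + exp (-K * s0) * us s0 x0) s0 := by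
      have a : HasDerivAt (fun t => exp (-K * t)) (exp (-K * s0) * (-K)) s0 := by
        simpa using ((hasDerivAt_id s0).const_mul (-K)).exp
      exact (a.fun_mul (hs s0 x0)).add_const (ε * (1 + x0 ^ 2))
    have f3 := MaxP_left d3 hs0' fun t t0 t1 => hall t x0 t0 (t1.trans a1) hx0
    obtain ⟨-, b2, b3⟩ := hb s0 x0 a0 hx0
    have p1 := mul_le_mul_of_nonneg_left (pde s0 x0 a0 hx0) e0.le
    set E := exp (-K * s0)
    set w := E * u s0 x0 with hw
    have hw0 : w < 0 := by linarith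
    have q1 : C * w ≤ c s0 x0 * w := by nlinarith
    have q2 : B s0 x0 * x0 ≤ C * |x0| := by
      refine (le_abs_self _).trans ?_
      rw [abs_mul]
      exact mul_le_mul_of_nonneg_right b2 (abs_nonneg _)
    have q3 : ε * (2 * |x0|) ≤ -w := by
      have : 2 * |x0| ≤ 1 + x0 ^ 2 := by rw [← sq_abs]; nlinarith [sq_nonneg (|x0| - 1)]
      nlinarith
    have q4 : ε ≤ -w := by nlinarith [sq_nonneg x0]
    have q5 : C * w ≤ B s0 x0 * (E * ux s0 x0) := by
      have : E * ux s0 x0 = -(ε * (2 * x0)) := by linarith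
      rw [this]
      have r1 := mul_le_mul_of_nonneg_left q2 hε.le
      have r2 := mul_le_mul_of_nonneg_left q3 hC
      nlinarith
    have q6 : (2 + 2 * C) * w ≤ E * uxx s0 x0 + B s0 x0 * (E * ux s0 x0) + c s0 x0 * w := by
      linarith
    have q7 := mul_le_mul_of_nonneg_left q6 a0
    have q8 : s0 * ((2 + 2 * C) * w) ≤ K * w := by
      have : E * (s0 * (uxx s0 x0 + B s0 x0 * ux s0 x0 + c s0 x0 * u s0 x0)) =
          s0 * (E * uxx s0 x0 + B s0 x0 * (E * ux s0 x0) + c s0 x0 * w) := by rw [hw]; ring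
      have : E * -K * u s0 x0 = -(K * w) := by rw [hw]; ring
      linarith
    have q9 : s * ((2 + 2 * C) * w) ≤ s0 * ((2 + 2 * C) * w) :=
      mul_le_mul_of_nonpos_right a1 (by nlinarith)
    have : K * w = s * ((2 + 2 * C) * w) + w := by rw [hK]; ring
    linarith
  have e0 : 0 < exp (-K * s) := exp_pos _
  have h2 : 0 ≤ exp (-K * s) * u s x := by
    refine le_of_forall_pos_le_add fun δ hδ => ?_
    have := key (δ / (1 + x ^ 2)) (by positivity)
    rwa [div_mul_cancel₀ _ (by positivity)] at this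
  exact nonneg_of_mul_nonneg_right h2 e0 |>.trans le_rfl

/-- `maxp` for `-jt 2` on the line (`Fl.t2`, `c = 2 jt 2`) and for `jt 3` on the half line
(`Fl.t3`, `c = 6 jt 2`, `Lj.odd_zero`). -/
theorem Fw.flow {U : ℝ → ℝ} (h : Fw U) {s : ℝ} (hs : 0 ≤ s) : Fw (Hq U s) := by
  have fl := h.toLj.fl
  obtain ⟨C1, h1⟩ := fl.bd 0
  obtain ⟨C2, h2⟩ := fl.bd 1
  obtain ⟨C3, h3⟩ := fl.bd 2
  have c1 : 0 ≤ C1 := (abs_nonneg _).trans (h1 0 0)
  have c2 : 0 ≤ C2 := (abs_nonneg _).trans (h2 0 0)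
  have c3 : 0 ≤ C3 := (abs_nonneg _).trans (h3 0 0)
  have hB : ∀ s x, |2 * jt 1 (Hq U s) x| ≤ 2 * C1 + 6 * C2 + C3 := fun s x => by
    rw [abs_mul, abs_two]
    have := h1 s x
    linarith
  refine ⟨fl.lj s, fun x => ?_, fun x hx => ?_⟩
  · have := maxp (u := fun s x => -jt 2 (Hq U s) x) (ux := fun s x => -jt 3 (Hq U s) x)
      (uxx := fun s x => -jt 4 (Hq U s) x)
      (us := fun s x => -(s * (jt 4 (Hq U s) x + 2 * jt 1 (Hq U s) x * jt 3 (Hq U s) x +
        2 * jt 2 (Hq U s) x ^ 2))) (B := fun s x => 2 * jt 1 (Hq U s) x)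
      (c := fun s x => 2 * jt 2 (Hq U s) x) (R := Set.univ) isClosed_univ
      (C := 2 * C1 + 6 * C2 + C3) (fl.cont 2).neg (fun s x => (jt_d (fl.lj s).sm 2 x).neg)
      (fun s x => (jt_d (fl.lj s).sm 3 x).neg) (fun s x => (fl.t2 s x).neg)
      (fun s x _ _ => ⟨by rw [abs_neg]; have := h2 s x; linarith, hB s x, by
        have := (le_abs_self _).trans (h2 s x); linarith⟩)
      (fun s x _ _ => le_of_eq (by ring))
      (fun x _ => by simp only [Hq_zero]; have := h.c2 x; linarith)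
      (fun s x _ _ hn => absurd (by simp) hn) s x hs trivial
    linarith
  · exact maxp (u := fun s x => jt 3 (Hq U s) x) (ux := fun s x => jt 4 (Hq U s) x)
      (uxx := fun s x => jt 5 (Hq U s) x)
      (us := fun s x => s * (jt 5 (Hq U s) x + 2 * jt 1 (Hq U s) x * jt 4 (Hq U s) x +
        6 * jt 2 (Hq U s) x * jt 3 (Hq U s) x)) (B := fun s x => 2 * jt 1 (Hq U s) x)
      (c := fun s x => 6 * jt 2 (Hq U s) x) (R := Set.Ici 0) isClosed_Ici
      (C := 2 * C1 + 6 * C2 + C3) (fl.cont 3) (fun s x => jt_d (fl.lj s).sm 3 x)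
      (fun s x => jt_d (fl.lj s).sm 4 x) (fun s x => fl.t3 s x)
      (fun s x _ _ => ⟨by have := h3 s x; linarith, hB s x, by
        have := (le_abs_self _).trans (h2 s x); linarith⟩)
      (fun s x _ _ => le_rfl)
      (fun x hx => by simp only [Hq_zero]; exact h.c3 x hx)
      (fun s x _ hx hn => by
        have : x = 0 := by
          rw [interior_Ici, Set.mem_Ioi, not_lt] at hn
          exact le_antisymm hn hx
        rw [this]
        exact ((fl.lj s).odd_zero 1).ge) s x hs hx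

end

end Vale.Agent.P367K
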