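import Vale.Agent.P367K.Jet1

/-! Calculus lemmas for the static inequality. -/

namespace Vale.Agent.P367K

open MeasureTheory ProbabilityTheory Real Filter Topology Vale.Agent.P146M Vale.Agent.P146
  Vale.Agent.P146L
open scoped ContDiff

noncomputable section

/-- Single crossing.  If `R x0 < 0`, the mean value theorem gives `x1 < x0` with `om x1 > 0`, and
`x2 > x0` with `om x2 < 0`. -/
theorem single_cross {R ρ om : ℝ → ℝ} (hd : ∀ x, HasDerivAt R (-(ρ x * om x)) x) (hρ : ∀ x, 0 < ρ x)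
    (hom : MonotoneOn om (Set.Ici 0)) (h0 : R 0 = 0) (hl : Tendsto R atTop (𝓝 0)) {x : ℝ}
    (hx : 0 ≤ x) : 0 ≤ R x := by
  by_contra hn
  rw [not_le] at hn
  have hc : Continuous R := continuous_iff_continuousAt.2 fun y => (hd y).continuousAt
  have hx0 : 0 < x := hx.lt_of_ne fun e => by
    rw [← e, h0] at hn
    exact lt_irrefl _ hn
  obtain ⟨x1, h1, e1⟩ := exists_hasDerivAt_eq_slope R _ hx0 hc.continuousOn fun y _ => hd y
  obtain ⟨y, hy, hxy⟩ := ((hl.eventually (lt_mem_nhds hn)).and (eventually_gt_atTop x)).exists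
  obtain ⟨x2, h2, e2⟩ := exists_hasDerivAt_eq_slope R _ hxy hc.continuousOn fun y _ => hd y
  have k1 : (R x - R 0) / (x - 0) < 0 := div_neg_of_neg_of_pos (by linarith) (by linarith)
  have k2 : 0 < (R y - R x) / (y - x) := div_pos (by linarith) (by linarith)
  have k3 : 0 < om x1 := (mul_pos_iff_of_pos_left (hρ x1)).1 (by linarith)
  have k4 : om x1 ≤ om x2 := hom h1.1.le (hx0.trans h2.1).le (h1.2.trans h2.1).le
  have k5 := mul_pos (hρ x2) (k3.trans_le k4)
  linarith

/-- `∫ y in 0..x, g y = -∫ y in Ioi x, g y`, bounded by the tail of `(1 + y ^ 2) |g y|`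
(`intervalIntegral_tendsto_integral_Ioi`). -/
theorem tail_lim {g : ℝ → ℝ} (hc : Continuous g)
    (hi : IntegrableOn (fun x => (1 + x ^ 2) * g x) (Set.Ioi 0)) (h0 : ∫ x in Set.Ioi 0, g x = 0) :
    Tendsto (fun x => (1 + x ^ 2) * ∫ y in (0 : ℝ)..x, g y) atTop (𝓝 0) := by
  have hle : ∀ x y : ℝ, 0 ≤ x → x ≤ y → ‖(1 + x ^ 2) * g y‖ ≤ ‖(1 + y ^ 2) * g y‖ := by
    intro x y hx hxy
    rw [norm_mul, norm_mul, Real.norm_of_nonneg (by positivity),
      Real.norm_of_nonneg (by positivity : (0 : ℝ) ≤ 1 + y ^ 2)]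
    gcongr
  have hg : IntegrableOn g (Set.Ioi 0) := by
    refine Integrable.mono hi hc.aestronglyMeasurable ((ae_restrict_mem measurableSet_Ioi).mono
      fun y hy => ?_)
    simpa using hle 0 y le_rfl (le_of_lt hy)
  refine squeeze_zero_norm' ?_ (tendsto_integral_Ioi_zero (μ := volume)
    (f := fun y => ‖(1 + y ^ 2) * g y‖) tendsto_id)
  filter_upwards [eventually_ge_atTop 0] with x hx
  have e := intervalIntegral.integral_Ioi_sub_Ioi hg hx
  rw [h0, zero_sub] at e
  rw [← e, mul_neg, norm_neg, ← integral_const_mul]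
  refine norm_integral_le_of_norm_le (hi.mono_set (Set.Ioi_subset_Ioi hx)).norm
    ((ae_restrict_mem measurableSet_Ioi).mono fun y hy => hle x y hx (le_of_lt hy))

/-- a function with nonnegative derivative, not identically zero, has a positive limit -/
theorem pos_lim {M M' : ℝ → ℝ} {l x1 : ℝ} (hd : ∀ x, HasDerivAt M (M' x) x)
    (h : ∀ x, 0 ≤ x → 0 ≤ M' x) (h1 : 0 < x1) (h2 : 0 < M' x1) (h0 : M 0 = 0)
    (hl : Tendsto M atTop (𝓝 l)) : 0 < l := by
  have hm : MonotoneOn M (Set.Ici 0) :=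
    monotoneOn_of_deriv_nonneg (convex_Ici 0) (fun x _ => (hd x).continuousAt.continuousWithinAt)
      (fun x _ => (hd x).differentiableAt.differentiableWithinAt) fun x hx => by
        rw [(hd x).deriv]
        exact h x (interior_subset hx)
  have ht := (hasDerivAt_iff_tendsto_slope_left_right.1 (hd x1)).2
  obtain ⟨y, hy, hxy⟩ := ((ht.eventually (lt_mem_nhds h2)).and self_mem_nhdsWithin).exists
  have hxy' : x1 < y := hxy
  rw [slope_def_field, lt_div_iff₀ (by linarith), zero_mul] at hy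
  have k1 := hm Set.self_mem_Ici h1.le h1.le
  have k2 : M y ≤ l := ge_of_tendsto hl ((eventually_ge_atTop y).mono fun z hz =>
    hm (h1.trans hxy').le ((h1.trans hxy').le.trans hz) hz)
  linarith

/-- Gaussian decay -/
theorem gauss_dec {T C : ℝ} (hT : 0 < T) {L : ℝ → ℝ} (hL : Continuous L)
    (hb : ∀ x, L x ≤ C * (1 + |x|)) :
    Integrable (fun x => (1 + x ^ 2) * exp (-x ^ 2 / (2 * T) + L x)) ∧
      Tendsto (fun x => (1 + x ^ 2) * exp (-x ^ 2 / (2 * T) + L x)) atTop (𝓝 0) := by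
  have hle : ∀ x, ‖(1 + x ^ 2) * exp (-x ^ 2 / (2 * T) + L x)‖ ≤
      (1 + 8 * T) * exp (C + 2 * T * C ^ 2) * exp (-(4 * T)⁻¹ * x ^ 2) := by
    intro x
    have h1 : 1 + x ^ 2 ≤ (1 + 8 * T) * exp (x ^ 2 / (8 * T)) := by
      refine le_trans ?_ (mul_le_mul_of_nonneg_left (add_one_le_exp _) (by positivity))
      have e : (1 + 8 * T) * (x ^ 2 / (8 * T) + 1) = x ^ 2 / (8 * T) + 8 * T + (1 + x ^ 2) := by
        field_simp
        ring
      have : 0 ≤ x ^ 2 / (8 * T) + 8 * T := by positivity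
      linarith
    have h2 : C * |x| ≤ x ^ 2 / (8 * T) + 2 * T * C ^ 2 := by
      have e : x ^ 2 / (8 * T) + 2 * T * C ^ 2 - C * |x| = (|x| - 4 * T * C) ^ 2 / (8 * T) := by
        rw [← sq_abs x]
        field_simp
        ring
      have : 0 ≤ (|x| - 4 * T * C) ^ 2 / (8 * T) := by positivity
      linarith
    rw [Real.norm_of_nonneg (by positivity)]
    refine (mul_le_mul_of_nonneg_right h1 (exp_pos _).le).trans ?_
    rw [mul_assoc, mul_assoc, ← exp_add, ← exp_add]
    refine mul_le_mul_of_nonneg_left (exp_le_exp.2 ?_) (by positivity)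
    have e : x ^ 2 / (8 * T) + -x ^ 2 / (2 * T) + x ^ 2 / (8 * T) = -(4 * T)⁻¹ * x ^ 2 := by
      field_simp
      ring
    linarith [hb x]
  have hp : 0 < (4 * T)⁻¹ := by positivity
  refine ⟨((integrable_exp_neg_mul_sq hp).const_mul _).mono'
    (Continuous.aestronglyMeasurable (by fun_prop)) (Eventually.of_forall hle),
    squeeze_zero_norm hle ?_⟩
  have ht : Tendsto (fun x : ℝ => exp (-(4 * T)⁻¹ * x ^ 2)) atTop (𝓝 0) :=
    tendsto_exp_atBot.comp ((tendsto_pow_atTop two_ne_zero).const_mul_atTop_of_neg (by linarith))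
  simpa using ht.const_mul ((1 + 8 * T) * exp (C + 2 * T * C ^ 2))

/-- `integral_gaussianReal_eq_integral_smul`, `Measure.integral_comp_mul_left`,
`integral_comp_abs` -/
theorem Iw_half {T : ℝ} (hT : 0 < T) : ∃ κ > 0, ∀ U P φ : ℝ → ℝ, (∀ x, U (-x) = U x) →
    (∀ x, P (-x) = P x) → (∀ x, φ (-x) = φ x) →
    Iw T U P φ = κ * ∫ x in Set.Ioi 0, exp (-x ^ 2 / (2 * T) + (U x + P x)) * φ x := by
  have hs : 0 < √T := sqrt_pos.2 hT
  refine ⟨(√(2 * π))⁻¹ * (√T)⁻¹ * 2, by positivity, fun U P φ hU hP hφ => ?_⟩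
  set G : ℝ → ℝ := fun x => exp (-x ^ 2 / (2 * T) + (U x + P x)) * φ x with hG
  have e1 : ∀ x, G |x| = G x := fun x => by
    rcases abs_choice x with h | h <;> simp only [hG, h, hU, hP, hφ, neg_sq]
  have e2 : ∀ z, gaussianPDFReal 0 1 z • (exp (U (√T * z) + P (√T * z)) * φ (√T * z)) =
      (√(2 * π))⁻¹ * G (√T * z) := fun z => by
    have e3 : -(√T * z) ^ 2 / (2 * T) = -z ^ 2 / 2 := by
      rw [mul_pow, sq_sqrt hT.le]
      field_simp
    simp only [hG, gaussianPDFReal, e3, exp_add, smul_eq_mul, NNReal.coe_one, mul_one, sub_zero]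
    ring
  have e4 := integral_comp_abs (f := G)
  simp only [e1] at e4
  rw [Iw, integral_gaussianReal_eq_integral_smul one_ne_zero]
  simp only [e2]
  rw [integral_const_mul, Measure.integral_comp_mul_left G, e4, abs_of_pos (inv_pos.2 hs),
    smul_eq_mul]
  ring

end

end Vale.Agent.P367K
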