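import Vale.Agent.P367K.St1

/-! The static inequality. -/

namespace Vale.Agent.P367K

open MeasureTheory ProbabilityTheory Real Filter Topology Vale.Agent.P146M Vale.Agent.P146
  Vale.Agent.P146L
open scoped ContDiff

noncomputable section

/-- bounded functions -/
@[fun_prop]
def St2B {α : Type} (f : α → ℝ) : Prop := ∃ K, 0 ≤ K ∧ ∀ x, |f x| ≤ K

@[fun_prop]
lemma St2B.const {α : Type} (c : ℝ) : St2B fun _ : α => c := ⟨|c|, abs_nonneg c, fun _ => le_rfl⟩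

@[fun_prop]
lemma St2B.add {α : Type} {f g : α → ℝ} (hf : St2B f) (hg : St2B g) :
    St2B fun x => f x + g x :=
  let ⟨K, h0, h⟩ := hf
  let ⟨K', h0', h'⟩ := hg
  ⟨K + K', add_nonneg h0 h0', fun x => (abs_add_le _ _).trans (add_le_add (h x) (h' x))⟩

@[fun_prop]
lemma St2B.mul {α : Type} {f g : α → ℝ} (hf : St2B f) (hg : St2B g) :
    St2B fun x => f x * g x :=
  let ⟨K, h0, h⟩ := hf
  let ⟨K', h0', h'⟩ := hg
  ⟨K * K', mul_nonneg h0 h0', fun x => by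
    rw [abs_mul]
    exact mul_le_mul (h x) (h' x) (abs_nonneg _) h0⟩

@[fun_prop]
lemma St2B.neg {α : Type} {f : α → ℝ} (hf : St2B f) : St2B fun x => -f x :=
  let ⟨K, h0, h⟩ := hf
  ⟨K, h0, fun x => by simpa using h x⟩

@[fun_prop]
lemma St2B.sub {α : Type} {f g : α → ℝ} (hf : St2B f) (hg : St2B g) :
    St2B fun x => f x - g x := by
  simpa only [sub_eq_add_neg] using hf.add hg.neg

@[fun_prop]
lemma St2B.pow {α : Type} {f : α → ℝ} (hf : St2B f) (n : ℕ) : St2B fun x => f x ^ n :=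
  let ⟨K, h0, h⟩ := hf
  ⟨K ^ n, pow_nonneg h0 n, fun x => by
    rw [abs_pow]
    exact pow_le_pow_left₀ (abs_nonneg _) (h x) n⟩

lemma St2_mono {f f' : ℝ → ℝ} (hd : ∀ x, HasDerivAt f (f' x) x) (h : ∀ x, 0 ≤ x → 0 ≤ f' x) :
    MonotoneOn f (Set.Ici 0) :=
  monotoneOn_of_deriv_nonneg (convex_Ici 0) (fun x _ => (hd x).continuousAt.continuousWithinAt)
    (fun x _ => (hd x).differentiableAt.differentiableWithinAt) fun x hx => by
      rw [(hd x).deriv]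
      exact h x (interior_subset hx)

/-- quadratic growth in `v` -/
lemma St2_lim {g v φ0 φ1 φ2 : ℝ → ℝ} {C : ℝ} (hg : Tendsto (fun x => (1 + x ^ 2) * g x) atTop (𝓝 0))
    (hv : ∀ x, |v x| ≤ C * (1 + |x|)) (h0 : St2B φ0) (h1 : St2B φ1) (h2 : St2B φ2) :
    Tendsto (fun x => g x * (φ0 x + φ1 x * v x + φ2 x * v x ^ 2)) atTop (𝓝 0) := by
  obtain ⟨K0, k0, h0⟩ := h0
  obtain ⟨K1, k1, h1⟩ := h1
  obtain ⟨K2, k2, h2⟩ := h2
  have hC : 0 ≤ C := by simpa using (abs_nonneg _).trans (hv 0)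
  have hl := hg.abs.const_mul (K0 + K1 * (2 * C) + K2 * (2 * C ^ 2))
  rw [abs_zero, mul_zero] at hl
  refine squeeze_zero_norm (fun x => ?_) hl
  have e1 : 1 + |x| ≤ 2 * (1 + x ^ 2) := by nlinarith [sq_abs x, sq_nonneg (|x| - 1)]
  have e2 : (1 + |x|) ^ 2 ≤ 2 * (1 + x ^ 2) := by nlinarith [sq_abs x, sq_nonneg (|x| - 1)]
  have e3 : |v x| ≤ 2 * C * (1 + x ^ 2) := by nlinarith [hv x]
  have e4 : |v x| ^ 2 ≤ 2 * C ^ 2 * (1 + x ^ 2) := by
    have := pow_le_pow_left₀ (abs_nonneg _) (hv x) 2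
    nlinarith [sq_nonneg C]
  have e5 : |φ0 x + φ1 x * v x + φ2 x * v x ^ 2| ≤
      (K0 + K1 * (2 * C) + K2 * (2 * C ^ 2)) * (1 + x ^ 2) := by
    refine (abs_add_three _ _ _).trans ?_
    rw [abs_mul, abs_mul, abs_pow]
    have a0 : |φ0 x| ≤ K0 * (1 + x ^ 2) := (h0 x).trans (by nlinarith [sq_nonneg x])
    have a1 := mul_le_mul (h1 x) e3 (abs_nonneg _) k1
    have a2 := mul_le_mul (h2 x) e4 (by positivity) k2
    linarith
  rw [Real.norm_eq_abs, abs_mul, abs_mul, abs_of_pos (by positivity : 0 < 1 + x ^ 2)]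
  nlinarith [abs_nonneg (g x)]

lemma St2_int {ρ φ : ℝ → ℝ} (hρ : IntegrableOn (fun x => (1 + x ^ 2) * ρ x) (Set.Ioi 0))
    (hc : Continuous φ) (hb : St2B φ) :
    IntegrableOn (fun x => (1 + x ^ 2) * (ρ x * φ x)) (Set.Ioi 0) := by
  obtain ⟨K, -, hK⟩ := hb
  have := Integrable.mul_bdd hρ hc.aestronglyMeasurable (ae_of_all _ fun x => hK x)
  simp only [mul_assoc] at this
  exact this

lemma St2_int' {g : ℝ → ℝ} (hc : Continuous g)
    (h : IntegrableOn (fun x => (1 + x ^ 2) * g x) (Set.Ioi 0)) : IntegrableOn g (Set.Ioi 0) :=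
  Integrable.mono h hc.aestronglyMeasurable (ae_of_all _ fun x => by
    rw [norm_mul, Real.norm_of_nonneg (by positivity : 0 ≤ 1 + x ^ 2)]
    nlinarith [norm_nonneg (g x), sq_nonneg x])

variable {ρ m w a b c v v1 v2 : ℝ → ℝ} {C : ℝ}

lemma SD.signs (h : SD ρ m w a b c v v1 v2 C) {x : ℝ} (hx : 0 ≤ x) :
    0 ≤ m x ∧ a x + 2 * m x ≤ 0 ∧ 0 ≤ v x := by
  have h1 := St2_mono h.dm (fun x _ => (h.w0 x).le) Set.self_mem_Ici hx hx
  have h2 := St2_mono (f := fun x => -(a x + 2 * m x))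
    (fun x => ((h.da x).add ((h.dm x).const_mul 2)).neg) (fun x _ => by linarith [h.hE x])
    Set.self_mem_Ici hx hx
  have h3 := St2_mono h.dv (fun x _ => (h.hv1 x).le) Set.self_mem_Ici hx hx
  simp only [h.m0, h.a0, h.v0] at h1 h2 h3
  exact ⟨h1, by linarith, h3⟩

lemma SD.vpos (h : SD ρ m w a b c v v1 v2 C) {x : ℝ} (hx : 0 < x) : 0 < v x :=
  h.v0 ▸ strictMono_of_hasDerivAt_pos h.dv h.hv1 hx

lemma SD.mono1 (h : SD ρ m w a b c v v1 v2 C) :
    MonotoneOn (fun x => a x ^ 2 - 2 * w x) (Set.Ici 0) := by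
  refine St2_mono (f' := fun x => -a x * (4 * (-(b x - a x ^ 2) / 2 - w x) + 6 * w x))
    (fun x => (((h.da x).pow 2).sub ((h.dw x).const_mul 2)).congr_deriv (by simp; ring))
    fun x hx => ?_
  obtain ⟨h1, h2, -⟩ := h.signs hx
  have := h.hE x
  have := h.w0 x
  exact mul_nonneg (by linarith) (by linarith)

lemma SD.mono2 (h : SD ρ m w a b c v v1 v2 C) : MonotoneOn
    (fun x => a x ^ 2 + (m x - v x) * a x - 2 * (-(b x - a x ^ 2) / 2 - w x)) (Set.Ici 0) := by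
  refine St2_mono (f' := fun x => (2 * (-(b x - a x ^ 2) / 2 - w x) + 2 * w x) *
      (-a x - m x + v x) + -a x * ((-(b x - a x ^ 2) / 2 - w x) + w x + v1 x) -
      2 * (-(3 / 2) * w x * a x - (3 / 4) * a x ^ 3 + (5 / 4) * a x * b x - c x / 2))
    (fun x => ((((h.da x).pow 2).add (((h.dm x).sub (h.dv x)).mul (h.da x))).sub
      ((((((h.db x).sub ((h.da x).pow 2)).neg).div_const 2).sub (h.dw x)).const_mul 2)).congr_deriv
      (by simp; ring)) fun x hx => ?_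
  obtain ⟨h1, h2, h3⟩ := h.signs hx
  have := h.hE x
  have := h.w0 x
  have := h.hv1 x
  have := h.hD x hx
  have e1 : 0 ≤ (2 * (-(b x - a x ^ 2) / 2 - w x) + 2 * w x) * (-a x - m x + v x) :=
    mul_nonneg (by linarith) (by linarith)
  have e2 : 0 ≤ -a x * ((-(b x - a x ^ 2) / 2 - w x) + w x + v1 x) :=
    mul_nonneg (by linarith) (by linarith)
  linarith

theorem SD.static {ρ m w a b c v v1 v2 : ℝ → ℝ} {C : ℝ} (h : SD ρ m w a b c v v1 v2 C)
    (h0 : ∫ x in Set.Ioi 0, ρ x * (w x ^ 2 * (a x ^ 2 - 2 * w x)) = 0) :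
    0 < ∫ x in Set.Ioi 0, ρ x * (w x ^ 2 * (b x ^ 2 - 12 * w x * a x ^ 2 + 6 * w x ^ 2)) := by
  have cρ : Continuous ρ := continuous_iff_continuousAt.2 fun x => (h.dρ x).continuousAt
  have cw : Continuous w := continuous_iff_continuousAt.2 fun x => (h.dw x).continuousAt
  have ca : Continuous a := continuous_iff_continuousAt.2 fun x => (h.da x).continuousAt
  have cb : Continuous b := continuous_iff_continuousAt.2 fun x => (h.db x).continuousAt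
  have hC : 0 ≤ C := (abs_nonneg _).trans (h.bd 0).1
  have bm : St2B m := ⟨C, hC, fun x => (h.bd x).1⟩
  have bw : St2B w := ⟨C, hC, fun x => (h.bd x).2.1⟩
  have ba : St2B a := ⟨C, hC, fun x => (h.bd x).2.2.1⟩
  have bb : St2B b := ⟨C, hC, fun x => (h.bd x).2.2.2.1⟩
  have bv1 : St2B v1 := ⟨C, hC, fun x => (h.bd x).2.2.2.2.1⟩
  have bv : ∀ x, |v x| ≤ C * (1 + |x|) := fun x => (h.bd x).2.2.2.2.2
  have c1 : Continuous fun x => ρ x * (w x ^ 2 * (a x ^ 2 - 2 * w x)) := by fun_prop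
  have c2 : Continuous fun x =>
    ρ x * (w x ^ 2 * (b x ^ 2 - 12 * w x * a x ^ 2 + 6 * w x ^ 2)) := by fun_prop
  obtain ⟨S, hS⟩ : ∃ S : ℝ → ℝ, S = fun x =>
    ∫ y in (0 : ℝ)..x, ρ y * (w y ^ 2 * (a y ^ 2 - 2 * w y)) := ⟨_, rfl⟩
  obtain ⟨J, hJ⟩ : ∃ J : ℝ → ℝ, J = fun x => ∫ y in (0 : ℝ)..x,
    ρ y * (w y ^ 2 * (b y ^ 2 - 12 * w y * a y ^ 2 + 6 * w y ^ 2)) := ⟨_, rfl⟩
  have dS : ∀ x, HasDerivAt S (ρ x * (w x ^ 2 * (a x ^ 2 - 2 * w x))) x := fun x =>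
    hS ▸ (c1.integral_hasStrictDerivAt 0 x).hasDerivAt
  have dJ : ∀ x, HasDerivAt J
      (ρ x * (w x ^ 2 * (b x ^ 2 - 12 * w x * a x ^ 2 + 6 * w x ^ 2))) x := fun x =>
    hJ ▸ (c2.integral_hasStrictDerivAt 0 x).hasDerivAt
  have S0 : S 0 = 0 := by simp [hS]
  have J0 : J 0 = 0 := by simp [hJ]
  have lS : Tendsto (fun x => (1 + x ^ 2) * S x) atTop (𝓝 0) :=
    hS ▸ tail_lim c1 (St2_int h.int (by fun_prop) (by fun_prop)) h0
  have lJ := intervalIntegral_tendsto_integral_Ioi 0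
    (St2_int' c2 (St2_int h.int (by fun_prop) (by fun_prop))) tendsto_id
  have lS' : Tendsto (fun x => -S x) atTop (𝓝 0) := by
    simpa using St2_lim (φ0 := fun _ => -1) (φ1 := fun _ => 0) (φ2 := fun _ => 0) lS bv
      (by fun_prop) (by fun_prop) (by fun_prop)
  have hΨ : ∀ x, 0 ≤ x → 0 ≤ -S x := fun x hx =>
    single_cross (R := fun x => -S x) (ρ := fun x => ρ x * w x ^ 2)
      (fun x => (dS x).neg.congr_deriv (by ring))
      (fun x => mul_pos (h.ρ0 x) (pow_pos (h.w0 x) 2)) h.mono1 (by simp [S0]) lS' hx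
  have hR : ∀ x, 0 ≤ x → 0 ≤ ρ x * (-(w x ^ 2 * a x)) + S x := fun x hx => by
    refine single_cross (R := fun x => ρ x * (-(w x ^ 2 * a x)) + S x)
      (ρ := fun x => ρ x * w x ^ 2) (fun x => (((h.dρ x).mul
        (((h.dw x).pow 2).mul (h.da x)).neg).add (dS x)).congr_deriv (by simp; ring))
      (fun x => mul_pos (h.ρ0 x) (pow_pos (h.w0 x) 2)) h.mono2 (by simp [S0, h.a0]) ?_ hx
    simpa using (St2_lim (φ0 := fun x => -(w x ^ 2 * a x)) (φ1 := fun _ => 0) (φ2 := fun _ => 0)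
      h.lim bv (by fun_prop) (by fun_prop) (by fun_prop)).sub lS'
  obtain ⟨x1, hx1, hS1⟩ : ∃ x1 > 0, 0 < -S x1 := by
    by_contra hn
    push Not at hn
    have e1 : S =ᶠ[𝓝[>] 0] fun _ => 0 :=
      eventually_nhdsWithin_of_forall fun x hx => by linarith [hn x hx, hΨ x (le_of_lt hx)]
    have e2 := (uniqueDiffWithinAt_Ioi (0 : ℝ)).eq_deriv _ (dS 0).hasDerivWithinAt
      ((hasDerivWithinAt_const (0 : ℝ) (Set.Ioi 0) (0 : ℝ)).congr_of_eventuallyEq e1 S0)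
    have := mul_pos (h.ρ0 0) (pow_pos (h.w0 0) 3)
    rw [h.a0] at e2
    nlinarith
  have hp : ∀ x, 0 ≤ x → v x * v1 x ≤ v x * v1 x - v2 x / 2 + (-(b x - a x ^ 2) / 2 - w x) * v x +
      (-a x / 2 - m x) * v1 x + (-(b x - a x ^ 2) / 2 - w x) * (-a x - m x) := fun x hx => by
    obtain ⟨h1, h2, h3⟩ := h.signs hx
    have e1 := mul_nonneg (h.hE x) h3
    have e2 := mul_nonneg (by linarith : 0 ≤ -a x / 2 - m x) (h.hv1 x).le
    have e3 := mul_nonneg (h.hE x) (by linarith : 0 ≤ -a x - m x)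
    linarith [h.hv2 x hx]
  have hq : ∀ x, 0 ≤ x → 0 ≤ -2 * (-(3 / 2) * w x * a x - (3 / 4) * a x ^ 3 +
      (5 / 4) * a x * b x - c x / 2) * (ρ x * (-(w x ^ 2 * a x)) + S x) := fun x hx =>
    mul_nonneg (by linarith [h.hD x hx]) (hR x hx)
  refine pos_lim (x1 := x1) (M := fun x => J x - ρ x * ((m x * w x ^ 3 -
      1 / 2 * (m x * w x ^ 2 * a x ^ 2) - 2 * (w x ^ 3 * a x) - 1 / 2 * (w x ^ 2 * a x ^ 3) +
      w x ^ 2 * a x * b x) + (1 / 2 * (w x ^ 2 * a x ^ 2) - w x ^ 3) * v x + 0 * v x ^ 2) -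
      S x * ((-(1 / 2) * v1 x + 1 / 2 * m x ^ 2 + 1 / 2 * (a x * m x) - b x + a x ^ 2 -
        5 / 2 * w x) + (-(1 / 2) * a x - m x) * v x + 1 / 2 * v x ^ 2))
    (M' := fun x => -S x * (v x * v1 x - v2 x / 2 + (-(b x - a x ^ 2) / 2 - w x) * v x +
      (-a x / 2 - m x) * v1 x + (-(b x - a x ^ 2) / 2 - w x) * (-a x - m x)) +
      -2 * (-(3 / 2) * w x * a x - (3 / 4) * a x ^ 3 + (5 / 4) * a x * b x - c x / 2) *
        (ρ x * (-(w x ^ 2 * a x)) + S x)) (fun x => ?_) (fun x hx => ?_) hx1 ?_ ?_ ?_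
  · have dm := h.dm x
    have dw := h.dw x
    have da := h.da x
    have db := h.db x
    have dv := h.dv x
    refine (((dJ x).sub ((h.dρ x).mul (((((((dm.mul (dw.pow 3)).sub
      (((dm.mul (dw.pow 2)).mul (da.pow 2)).const_mul (1 / 2))).sub
      (((dw.pow 3).mul da).const_mul 2)).sub (((dw.pow 2).mul (da.pow 3)).const_mul (1 / 2))).add
      (((dw.pow 2).mul da).mul db)).add (((((dw.pow 2).mul (da.pow 2)).const_mul (1 / 2)).sub
      (dw.pow 3)).mul dv)).add ((dv.pow 2).const_mul 0)))).sub ((dS x).mul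
      (((((((((h.dv1 x).const_mul (-(1 / 2))).add ((dm.pow 2).const_mul (1 / 2))).add
      ((da.mul dm).const_mul (1 / 2))).sub db).add (da.pow 2)).sub (dw.const_mul (5 / 2))).add
      (((da.const_mul (-(1 / 2))).sub dm).mul dv)).add
      ((dv.pow 2).const_mul (1 / 2))))).congr_deriv ?_
    simp only [Pi.add_apply, Pi.sub_apply, Pi.mul_apply, Pi.pow_apply]
    push_cast
    ring
  · exact add_nonneg (mul_nonneg (hΨ x hx)
      ((mul_nonneg (h.signs hx).2.2 (h.hv1 x).le).trans (hp x hx))) (hq x hx)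
  · exact add_pos_of_pos_of_nonneg (mul_pos hS1
      ((mul_pos (h.vpos hx1) (h.hv1 x1)).trans_le (hp x1 hx1.le))) (hq x1 hx1.le)
  · simp [J0, S0, h.m0, h.a0, h.v0]
  · have := (lJ.sub (St2_lim (φ0 := fun x => m x * w x ^ 3 -
      1 / 2 * (m x * w x ^ 2 * a x ^ 2) - 2 * (w x ^ 3 * a x) - 1 / 2 * (w x ^ 2 * a x ^ 3) +
      w x ^ 2 * a x * b x) (φ1 := fun x => 1 / 2 * (w x ^ 2 * a x ^ 2) - w x ^ 3)
      (φ2 := fun _ => 0) h.lim bv (by fun_prop) (by fun_prop) (by fun_prop))).sub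
      (St2_lim (φ0 := fun x => -(1 / 2) * v1 x + 1 / 2 * m x ^ 2 + 1 / 2 * (a x * m x) - b x +
        a x ^ 2 - 5 / 2 * w x) (φ1 := fun x => -(1 / 2) * a x - m x) (φ2 := fun _ => 1 / 2) lS bv
        (by fun_prop) (by fun_prop) (by fun_prop))
    rw [sub_zero, sub_zero] at this
    rw [hJ]
    exact this

end

end Vale.Agent.P367K
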